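import Vale.Agent.P072.Subsets

/-! An exhausting family of polytopes whose facet normals follow the logarithm. -/

open Filter Real Finset

namespace Vale.Agent.P072

variable {ι : Type*} [Fintype ι] [DecidableEq ι]

def Sat (W : Set (Pc ι)) (t : ℝ) (x : ι → ℝ) : Prop := ∀ p ∈ W, val p t x ≤ 0

structure Fac (A : Set ((ι → ℝ) × ℝ)) (r : ℕ) (lam μ : ℝ) (W : Set (Pc ι)) : Prop where
  hlam : 0 < lam
  hμ : 0 < μ
  fin : W.Finite
  smooth : ∀ p ∈ W, ContDiff ℝ 1 p.2
  exh : ∀ p ∈ W, ∀ x : ι → ℝ, (∀ i, 0 < x i) → ∀ᶠ t in atTop, val p t x < 0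
  valid : ∀ᶠ t in atTop, ∀ x : ι → ℝ, (∀ i, 0 < x i) → (∀ i, exp (t * (-1)) ≤ x i) →
    (∀ i, x i ≤ exp (t * lam)) → Sat W t x → ∀ p ∈ W, val p t x = 0 →
      Star' univ A 0 p.1 t x μ ∨ ∃ R : Finset ι, R.card = r + 1 ∧ ∑ i ∈ R, x i < exp (t * (-lam))

omit [DecidableEq ι] in
theorem fac_zero (A : Set ((ι → ℝ) × ℝ)) : Fac A 0 1 1 ∅ :=
  ⟨one_pos, one_pos, Set.finite_empty, fun _ h => h.elim, fun _ h => h.elim,
    Eventually.of_forall fun _ _ _ _ _ _ _ h => h.elim⟩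

/-- the base piece of a facet family. -/
noncomputable def base (R : Finset ι) (α : ℝ) : Pc ι :=
  pure' R (α - 0) (fun t => α * exp (t * α))

omit [DecidableEq ι] in
theorem val_base (R : Finset ι) (α t : ℝ) (x : ι → ℝ) :
    val (base R α) t x = α * (∑ i ∈ R, x i - exp (t * α)) := by
  rw [base, val_pure]; ring

omit [DecidableEq ι] in
theorem exh_neg {R : Finset ι} (hR : R.Nonempty) {lam γ : ℝ} (hlam : 0 < lam) (hγ : γ < 0)
    {q : Pc ι} (hq : Ok R q γ) (x : ι → ℝ) (hx : ∀ i, 0 < x i) :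
    ∀ᶠ t in atTop, val (base R (-lam) + q) t x < 0 := by
  have hs : 0 < lam * ∑ i ∈ R, x i / 2 := mul_pos hlam (sum_pos (fun i _ => half_pos (hx i)) hR)
  rw [← sum_div] at hs
  filter_upwards [hq.val_le (show γ < γ / 2 by linarith),
    exp_dom (show γ / 2 < 0 by linarith) 1 hs, exp_dom (show -lam < 0 by linarith) lam hs]
    with t h1 h2 h3
  rw [val_add, val_base]
  have h4 := h1 x hx
  simp only [mul_zero, exp_zero] at h2 h3
  nlinarith

omit [DecidableEq ι] in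
theorem exh_pos {R : Finset ι} {lam γ : ℝ} (hlam : 0 < lam) (hγ : γ < lam)
    {q : Pc ι} (hq : Ok R q γ) (x : ι → ℝ) (hx : ∀ i, 0 < x i) :
    ∀ᶠ t in atTop, val (base R lam + q) t x < 0 := by
  filter_upwards [hq.val_le (show γ < (γ + lam) / 2 by linarith),
    exp_dom (show (γ + lam) / 2 < lam by linarith) 1 (half_pos hlam),
    exp_dom hlam (lam * ∑ i ∈ R, x i) (half_pos hlam)] with t h1 h2 h3
  rw [val_add, val_base]
  have h4 := h1 x hx
  simp only [mul_zero, exp_zero] at h3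
  nlinarith

omit [DecidableEq ι] in
theorem top_of_active {W F : Set (Pc ι)} {B q : Pc ι} {t : ℝ} {x : ι → ℝ} (hs : Sat W t x)
    (hsub : ∀ q ∈ F, B + q ∈ W) (hq : q ∈ F) (h0 : val (B + q) t x = 0) : IsTop' F q t x := by
  refine ⟨hq, fun q' hq' => ?_⟩
  have := hs _ (hsub q' hq')
  rw [val_add] at this h0
  linarith

theorem fac_step {A : Set ((ι → ℝ) × ℝ)} (hA : A.Finite) {r : ℕ} {lam μ : ℝ} {W : Set (Pc ι)}
    (h : Fac A r lam μ W) : ∃ lam' μ' W', Fac A (r + 1) lam' μ' W' ∧ W ⊆ W' ∧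
      ∀ R : Finset ι, R.card = r + 1 → ∀ t x, Sat W' t x → exp (t * (-lam)) ≤ ∑ i ∈ R, x i := by
  obtain ⟨K, hK0, hK⟩ := exists_bound hA fun a => ∑ i, |a.1 i|
  have hlam := h.hlam
  set S : Set (Finset ι) := {R | R.card = r + 1} with hS
  have hSf : S.Finite := Set.toFinite _
  have hS' := fun R : Finset ι =>
    sProp_all R (shiftA univ R 0 A) (hA.image _) (-lam) (-1)
  choose μf hμf Ff hFf h0f hokf hval using hS'
  obtain ⟨m, hm0, hm⟩ := exists_pos_le hSf μf fun R _ => hμf R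
  obtain ⟨l, hl, hll, hKl⟩ := small_eps hK0 hm0 hlam
  set W' : Set (Pc ι) := W ∪ ⋃ R ∈ S, (fun q => base R (-lam) + q) '' Ff R with hW'
  have hmem : ∀ R ∈ S, ∀ q ∈ Ff R, base R (-lam) + q ∈ W' := fun R hR q hq =>
    Or.inr (Set.mem_iUnion₂.2 ⟨R, hR, q, hq, rfl⟩)
  have hlow : ∀ R : Finset ι, R.card = r + 1 → ∀ t x, Sat W' t x →
      exp (t * (-lam)) ≤ ∑ i ∈ R, x i := by
    intro R hR t x hs
    have h1 := hs _ (hmem R hR 0 (h0f R))
    rw [add_zero, val_base] at h1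
    nlinarith
  refine ⟨l, min μ (m / 2), W', ⟨hl, lt_min h.hμ (by linarith),
    h.fin.union (hSf.biUnion fun R _ => (hFf R).image _), ?_, ?_, ?_⟩, Set.subset_union_left, hlow⟩
  · rintro p (hp | hp)
    · exact h.smooth p hp
    · obtain ⟨R, -, q, hq, rfl⟩ := Set.mem_iUnion₂.1 hp
      exact (smooth_exp _ _).add (hokf R q hq).smooth
  · rintro p (hp | hp)
    · exact h.exh p hp
    · obtain ⟨R, hR, q, hq, rfl⟩ := Set.mem_iUnion₂.1 hp
      exact exh_neg (card_pos.1 (by rw [hR]; omega)) hlam (by linarith [hμf R]) (hokf R q hq)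
  have hv : ∀ᶠ t in atTop, ∀ R ∈ S, ∀ q ∈ Ff R, ∀ x : ι → ℝ, (∀ i, 0 < x i) →
      val q t x ≤ exp (t * (-lam - m / 2)) :=
    (eventually_all_finite hSf).2 fun R hR => fam_val_le (hFf R) (hokf R) (by linarith [hm R hR])
  filter_upwards [h.valid, (eventually_all_finite hSf).2 fun R _ => hval R, hv,
    exp_dom (show -lam - m / 2 < -lam by linarith) 1 hlam,
    exp_dom (show -lam < -lam + m by linarith) 2 one_pos,
    exp_dom (show -lam < -l by linarith) 4 one_pos,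
    exp_dom (show 0 - 2 * l < -l by linarith) 2 one_pos,
    eventually_ge_atTop 0] with t h1 h2 h3 h4 h5 h6 h7 ht x hx hL hU hs p hp h0
  rcases hp with hp | hp
  · rcases h1 x hx hL (fun i => (hU i).trans (exp_mono' (by linarith) ht))
      (fun q hq => hs q (Or.inl hq)) p hp h0 with h8 | ⟨R, hR, h8⟩
    · exact Or.inl (h8.mono (min_le_left _ _) ht)
    · exact absurd (hlow R hR t x hs) (not_le.2 h8)
  obtain ⟨R, hR, q, hq, rfl⟩ := Set.mem_iUnion₂.1 hp
  have htop := top_of_active hs (hmem R hR) hq h0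
  have h8 : ∑ i ∈ R, x i ≤ 2 * exp (t * (-lam)) := by
    simp only at h0
    rw [val_add, val_base] at h0
    have := h3 R hR q hq x hx
    nlinarith
  have h9 := h2 R hR x hx (fun i _ => hL i)
    ((exp_mono' (by linarith [hμf R]) ht).trans (hlow R hR t x hs))
    (by linarith [exp_mono' (show -lam + m ≤ -lam + μf R by linarith [hm R hR]) ht]) q htop
  by_cases hc : ∀ i ∈ univ \ R, exp (t * (-l)) / 2 ≤ x i
  · left
    refine Star'.mono ?_ (min_le_right _ _) ht
    refine star_ext (subset_univ R) (fun i hi => ?_) hK (by linarith) hKl ht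
      (fun i hi => abs_log_sub ?_ ?_) (star_shift (h9.mono (hm R hR) ht))
    · simp only [Prod.fst_add, Pi.add_apply, base, pure_fst_not _ _ hi, (hokf R q hq).supp i hi,
        add_zero]
    · linarith [hc i hi]
    · exact (hU i).trans (exp_mono' (by linarith) ht)
  · right
    push Not at hc
    obtain ⟨i, hi, hxi⟩ := hc
    have hi' := mem_sdiff.1 hi
    refine ⟨insert i R, by rw [card_insert_of_notMem hi'.2, hR], ?_⟩
    rw [sum_insert hi'.2]
    linarith

theorem fac_all {A : Set ((ι → ℝ) × ℝ)} (hA : A.Finite) (r : ℕ) :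
    ∃ lam μ W, Fac A (r + 1) lam μ W ∧ ∀ t x, Sat W t x → ∀ i, exp (t * (-1)) ≤ x i := by
  induction r with
  | zero =>
    obtain ⟨l, m, W, h, -, h2⟩ := fac_step hA (fac_zero A)
    exact ⟨l, m, W, h, fun t x hs i => by simpa using h2 {i} (by simp) t x hs⟩
  | succ r ih =>
    obtain ⟨l, m, W, h, h1⟩ := ih
    obtain ⟨l', m', W', h', hsub, -⟩ := fac_step hA h
    exact ⟨l', m', W', h', fun t x hs => h1 t x fun p hp => hs p (hsub hp)⟩

theorem lemmaK {A : Set ((ι → ℝ) × ℝ)} (hA : A.Finite) :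
    ∃ (lam μ : ℝ) (W : Set (Pc ι)), 0 < lam ∧ 0 < μ ∧ W.Finite ∧ (∀ p ∈ W, ContDiff ℝ 1 p.2) ∧
      (∀ p ∈ W, ∀ x : ι → ℝ, (∀ i, 0 < x i) → ∀ᶠ t in atTop, val p t x < 0) ∧
      (∀ t x, Sat W t x → ∀ i, exp (t * (-1)) ≤ x i ∧ x i ≤ exp (t * lam)) ∧
      ∀ᶠ t in atTop, ∀ x : ι → ℝ, Sat W t x → ∀ p ∈ W, val p t x = 0 →
        Star' univ A 0 p.1 t x μ := by
  obtain ⟨lam, μ, W, h, hlow⟩ := fac_all hA (Fintype.card ι)
  have hlam := h.hlam
  obtain ⟨m, hm, F, hF, h0F, hok, hval⟩ := sProp_all (univ : Finset ι) A hA lam (-1)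
  set W' : Set (Pc ι) := W ∪ (fun q => base univ lam + q) '' F with hW'
  have hmem : ∀ q ∈ F, base univ lam + q ∈ W' := fun q hq => Or.inr ⟨q, hq, rfl⟩
  have hl : ∀ t x, Sat W' t x → ∀ i, exp (t * (-1)) ≤ x i := fun t x hs =>
    hlow t x fun p hp => hs p (Or.inl hp)
  have hu : ∀ t x, Sat W' t x → ∑ i, x i ≤ exp (t * lam) := by
    intro t x hs
    have h1 := hs _ (hmem 0 h0F)
    rw [add_zero, val_base] at h1
    nlinarith
  have hu' : ∀ t x, Sat W' t x → ∀ i, x i ≤ exp (t * lam) := fun t x hs i =>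
    (single_le_sum (fun j _ => ((exp_pos _).trans_le (hl t x hs j)).le) (mem_univ i)).trans
      (hu t x hs)
  refine ⟨lam, min μ m, W', hlam, lt_min h.hμ hm, h.fin.union (hF.image _), ?_, ?_,
    fun t x hs i => ⟨hl t x hs i, hu' t x hs i⟩, ?_⟩
  · rintro p (hp | ⟨q, hq, rfl⟩)
    · exact h.smooth p hp
    · exact (smooth_exp _ _).add (hok q hq).smooth
  · rintro p (hp | ⟨q, hq, rfl⟩)
    · exact h.exh p hp
    · exact exh_pos hlam (by linarith) (hok q hq)
  filter_upwards [h.valid, hval, fam_val_le hF hok (show lam - m < lam - m / 2 by linarith),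
    exp_dom (show lam - m / 2 < lam by linarith) 1 (half_pos hlam),
    exp_dom (show lam - m < lam by linarith) 2 one_pos,
    eventually_ge_atTop 0] with t h1 h2 h3 h4 h5 ht x hs p hp h0
  have hx : ∀ i, 0 < x i := fun i => (exp_pos _).trans_le (hl t x hs i)
  rcases hp with hp | ⟨q, hq, rfl⟩
  · rcases h1 x hx (hl t x hs) (hu' t x hs) (fun q hq => hs q (Or.inl hq)) p hp h0 with
      h8 | ⟨R, hR, -⟩
    · exact h8.mono (min_le_left _ _) ht
    · have := card_le_univ R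
      omega
  · have htop := top_of_active hs hmem hq h0
    have h8 : exp (t * lam) / 2 ≤ ∑ i, x i := by
      simp only at h0
      rw [val_add, val_base] at h0
      have := h3 q hq x hx
      nlinarith
    have h9 := h2 x hx (fun i _ => hl t x hs i) (by linarith)
      ((hu t x hs).trans (exp_mono' (by linarith) ht)) q htop
    exact (star_shift h9).mono (min_le_right _ _) ht

end Vale.Agent.P072
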