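import Vale.Agent.P072.Defs
import Vale.Agent.P072.Facets

/-! The flux through a facet is negative. -/

open Real Finset

namespace Vale.Agent.P072

variable {d : ℕ}

theorem cross_step {α : Type*} {rel : α → α → Prop} {g : α → ℝ} {θ : ℝ} {a b : α}
    (h : Relation.TransGen rel a b) (ha : θ < g a) (hb : g b ≤ θ) :
    ∃ z z', rel z z' ∧ θ < g z ∧ g z' ≤ θ := by
  induction h with
  | single h => exact ⟨_, _, h, ha, hb⟩
  | @tail b' c _ h ih =>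
    by_cases hc : g b' ≤ θ
    · exact ih hc
    · exact ⟨_, _, h, not_le.1 hc, hb⟩

/-- differences of source complexes. -/
def walls (R : Finset ((Fin d → ℕ) × (Fin d → ℕ))) : Set ((Fin d → ℝ) × ℝ) :=
  (fun q : ((Fin d → ℕ) × (Fin d → ℕ)) × ((Fin d → ℕ) × (Fin d → ℕ)) =>
    ((fun i => (q.2.1 i : ℝ) - q.1.1 i), (0 : ℝ))) '' ((R : Set _) ×ˢ (R : Set _))

theorem walls_finite (R : Finset ((Fin d → ℕ) × (Fin d → ℕ))) : (walls R).Finite :=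
  (R.finite_toSet.prod R.finite_toSet).image _

theorem dot_react (w : Fin d → ℝ) (r : (Fin d → ℕ) × (Fin d → ℕ)) :
    w ⬝ᵥ reactVec r = ∑ i, w i * r.2 i - ∑ i, w i * r.1 i := by
  simp only [dotProduct, reactVec, mul_sub, sum_sub_distrib]

theorem dot_mass (w : Fin d → ℝ) (R : Finset ((Fin d → ℕ) × (Fin d → ℕ)))
    (k : (Fin d → ℕ) × (Fin d → ℕ) → ℝ) (x : Fin d → ℝ) :
    w ⬝ᵥ massAction R k x = ∑ r ∈ R, (k r * ∏ i, x i ^ r.1 i) * (w ⬝ᵥ reactVec r) := by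
  simp only [massAction, dotProduct_sum, dotProduct_smul, smul_eq_mul]

theorem mono_le {x : Fin d → ℝ} (hx : ∀ i, 0 < x i) {y z : Fin d → ℕ} {δ : ℝ}
    (h : δ ≤ ∑ i, ((z i : ℝ) - y i) * log (x i)) :
    exp δ * ∏ i, x i ^ y i ≤ ∏ i, x i ^ z i := by
  have h1 : ∀ y : Fin d → ℕ, ∏ i, x i ^ y i = exp (∑ i, (y i : ℝ) * log (x i)) := by
    intro y
    rw [exp_sum]
    refine prod_congr rfl fun i _ => ?_
    rw [exp_nat_mul, exp_log (hx i)]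
  rw [h1, h1, ← exp_add, exp_le_exp]
  simp only [sub_mul, sum_sub_distrib] at h
  linarith

theorem up_dominated {R : Finset ((Fin d → ℕ) × (Fin d → ℕ))} (hR : WeaklyReversible R)
    {w : Fin d → ℝ} {r : (Fin d → ℕ) × (Fin d → ℕ)} (hr : r ∈ R) (h : 0 < w ⬝ᵥ reactVec r) :
    ∃ r' ∈ R, w ⬝ᵥ reactVec r' < 0 ∧ 0 < ∑ i, ((r'.1 i : ℝ) - r.1 i) * w i := by
  rw [dot_react] at h
  obtain ⟨z, z', h1, h2, h3⟩ := cross_step (g := fun y : Fin d → ℕ => ∑ i, w i * y i)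
    (θ := ∑ i, w i * r.1 i) (hR r hr) (by linarith) le_rfl
  refine ⟨(z, z'), h1, by rw [dot_react]; simp only; linarith, ?_⟩
  simp only [mul_comm _ (w _), mul_sub, sum_sub_distrib]
  linarith

theorem flux_core {R : Finset ((Fin d → ℕ) × (Fin d → ℕ))} (hR : WeaklyReversible R)
    {w x : Fin d → ℝ} {lo hi m M δ : ℝ} (hlo : 0 < lo) (hhi : 0 < hi) (hm0 : 0 < m) (hM0 : 0 < M)
    (hδ : 2 * R.card * hi * M ≤ exp δ * (lo * m))
    (hm : ∀ r ∈ R, w ⬝ᵥ reactVec r < 0 → w ⬝ᵥ reactVec r ≤ -m)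
    (hM : ∀ r ∈ R, w ⬝ᵥ reactVec r ≤ M) (hne : ∃ r ∈ R, w ⬝ᵥ reactVec r ≠ 0)
    {k : (Fin d → ℕ) × (Fin d → ℕ) → ℝ} (hk : ∀ r ∈ R, lo ≤ k r ∧ k r ≤ hi)
    (hx : ∀ i, 0 < x i)
    (hs : ∀ v ∈ walls R, 0 < ∑ i, v.1 i * w i → δ ≤ ∑ i, v.1 i * log (x i)) :
    ∃ r ∈ R, w ⬝ᵥ massAction R k x ≤ -(lo * m / 2 * ∏ i, x i ^ r.1 i) := by
  classical
  have hD : (R.filter fun r => w ⬝ᵥ reactVec r < 0).Nonempty := by
    obtain ⟨r, hr, h⟩ := hne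
    rcases lt_or_gt_of_ne h with h | h
    · exact ⟨r, mem_filter.2 ⟨hr, h⟩⟩
    · obtain ⟨r', hr', h', -⟩ := up_dominated hR hr h
      exact ⟨r', mem_filter.2 ⟨hr', h'⟩⟩
  obtain ⟨r0, hr0, hmax⟩ := exists_max_image _ (fun r => ∏ i, x i ^ r.1 i) hD
  rw [mem_filter] at hr0
  have hXpos : ∀ y : Fin d → ℕ, 0 < ∏ i, x i ^ y i := fun y =>
    prod_pos fun i _ => pow_pos (hx i) _
  set X := ∏ i, x i ^ r0.1 i with hX
  have hX0 : 0 < X := hXpos _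
  have hterm : ∀ r ∈ R, (k r * ∏ i, x i ^ r.1 i) * (w ⬝ᵥ reactVec r) ≤
      hi * M * X / exp δ := by
    intro r hr
    have hkr : 0 < k r := hlo.trans_le (hk r hr).1
    rcases le_or_gt (w ⬝ᵥ reactVec r) 0 with h | h
    · exact (mul_nonpos_of_nonneg_of_nonpos (mul_pos hkr (hXpos _)).le h).trans (by positivity)
    · obtain ⟨r', hr', h', h''⟩ := up_dominated hR hr h
      have h1 := mono_le hx (hs _ ⟨(r, r'), ⟨hr, hr'⟩, rfl⟩ h'')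
      have h2 : ∏ i, x i ^ r'.1 i ≤ X := hmax r' (mem_filter.2 ⟨hr', h'⟩)
      rw [le_div_iff₀ (exp_pos _)]
      have h3 : exp δ * ∏ i, x i ^ r.1 i ≤ X := h1.trans h2
      calc (k r * ∏ i, x i ^ r.1 i) * (w ⬝ᵥ reactVec r) * exp δ
          = k r * (w ⬝ᵥ reactVec r) * (exp δ * ∏ i, x i ^ r.1 i) := by ring
        _ ≤ hi * M * X := mul_le_mul (mul_le_mul (hk r hr).2 (hM r hr) h.le hhi.le) h3
            (mul_pos (exp_pos _) (hXpos _)).le (by positivity)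
  refine ⟨r0, hr0.1, ?_⟩
  rw [dot_mass, ← add_sum_erase _ _ hr0.1]
  have h1 := sum_le_card_nsmul (R.erase r0) _ _ fun r hr => hterm r (mem_of_mem_erase hr)
  have h2 : ((R.erase r0).card : ℝ) ≤ R.card := by exact_mod_cast card_erase_le
  rw [nsmul_eq_mul] at h1
  have h3 : (R.card : ℝ) * (hi * M * X / exp δ) ≤ lo * m / 2 * X := by
    rw [← mul_div_assoc, div_le_iff₀ (exp_pos _)]
    nlinarith
  have h4 := mul_le_mul_of_nonneg_right h2 (show 0 ≤ hi * M * X / exp δ by positivity)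
  have h5 : k r0 * X * (w ⬝ᵥ reactVec r0) ≤ -(lo * m * X) := by
    have h6 := hm r0 hr0.1 hr0.2
    have h7 := (hk r0 hr0.1).1
    have h8 : k r0 * (w ⬝ᵥ reactVec r0) ≤ -(lo * m) := by nlinarith
    nlinarith
  linarith

theorem flux {R : Finset ((Fin d → ℕ) × (Fin d → ℕ))} (hR : WeaklyReversible R)
    {W : Set (Pc (Fin d))} (hW : W.Finite) {lo hi : ℝ} (hlo : 0 < lo) (hhi : 0 < hi) :
    ∃ δ : ℝ, ∀ a : ℝ, 0 < a → ∃ η : ℝ, 0 < η ∧ ∀ p ∈ W, (∃ r ∈ R, p.1 ⬝ᵥ reactVec r ≠ 0) →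
      ∀ k : (Fin d → ℕ) × (Fin d → ℕ) → ℝ, (∀ r ∈ R, lo ≤ k r ∧ k r ≤ hi) →
      ∀ x : Fin d → ℝ, (∀ i, a ≤ x i) →
      (∀ v ∈ walls R, 0 < ∑ i, v.1 i * p.1 i → δ ≤ ∑ i, v.1 i * log (x i)) →
      p.1 ⬝ᵥ massAction R k x ≤ -η := by
  have hf := hW.prod R.finite_toSet
  obtain ⟨M, hM0, hM⟩ := exists_bound hf fun q => q.1.1 ⬝ᵥ reactVec q.2
  have hf' : ({q ∈ W ×ˢ (R : Set _) | q.1.1 ⬝ᵥ reactVec q.2 < 0}).Finite :=
    hf.subset fun q hq => hq.1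
  obtain ⟨m, hm0, hm⟩ := exists_pos_le hf' (fun q => -(q.1.1 ⬝ᵥ reactVec q.2))
    fun q hq => neg_pos.2 hq.2
  refine ⟨2 * R.card * hi * M / (lo * m), fun a ha => ?_⟩
  obtain ⟨ρ, hρ0, hρ⟩ := exists_pos_le R.finite_toSet (fun r => ∏ i, a ^ r.1 i)
    fun r _ => prod_pos fun i _ => pow_pos ha _
  refine ⟨lo * m / 2 * ρ, by positivity, fun p hp hne k hk x hx hs => ?_⟩
  have hδ : 2 * R.card * hi * M ≤ exp (2 * R.card * hi * M / (lo * m)) * (lo * m) := by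
    rw [← div_le_iff₀ (by positivity)]
    linarith [add_one_le_exp (2 * R.card * hi * M / (lo * m))]
  obtain ⟨r, hr, h⟩ := flux_core hR hlo hhi hm0 hM0 hδ
    (fun r hr h => by linarith [hm (p, r) ⟨⟨hp, hr⟩, h⟩]) (fun r hr => hM (p, r) ⟨hp, hr⟩) hne hk
    (fun i => ha.trans_le (hx i)) hs
  have h1 : ρ ≤ ∏ i, x i ^ r.1 i := (hρ r hr).trans
    (prod_le_prod (fun i _ => by positivity) fun i _ => pow_le_pow_left₀ ha.le (hx i) _)
  have h2 := mul_le_mul_of_nonneg_left h1 (show 0 ≤ lo * m / 2 by positivity)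
  linarith

theorem mass_mem (R : Finset ((Fin d → ℕ) × (Fin d → ℕ)))
    (k : (Fin d → ℕ) × (Fin d → ℕ) → ℝ) (x : Fin d → ℝ) :
    massAction R k x ∈ Submodule.span ℝ (reactVec '' (R : Set ((Fin d → ℕ) × (Fin d → ℕ)))) :=
  Submodule.sum_mem _ fun r hr =>
    Submodule.smul_mem _ _ (Submodule.subset_span ⟨r, hr, rfl⟩)

theorem dot_span {R : Finset ((Fin d → ℕ) × (Fin d → ℕ))} {w v : Fin d → ℝ}
    (h : ∀ r ∈ R, w ⬝ᵥ reactVec r = 0)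
    (hv : v ∈ Submodule.span ℝ (reactVec '' (R : Set ((Fin d → ℕ) × (Fin d → ℕ))))) :
    w ⬝ᵥ v = 0 := by
  induction hv using Submodule.span_induction with
  | mem v hv => obtain ⟨r, hr, rfl⟩ := hv; exact h r hr
  | zero => simp
  | add u v _ _ h1 h2 => rw [dotProduct_add, h1, h2, add_zero]
  | smul a v _ h1 => rw [dotProduct_smul, h1, smul_zero]

end Vale.Agent.P072
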