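import Vale.Agent.P072.Flow
import Vale.Agent.P072.Network

/-! Moving barrier argument for integral solutions. -/

open MeasureTheory Set Real Filter Topology

namespace Vale.Agent.P072

variable {d : ℕ}

theorem real_ind {σ : Type*} {W : Set σ} (hW : W.Finite) {g : σ → ℝ → ℝ} {a b : ℝ}
    (hc : ∀ p ∈ W, ContinuousOn (g p) (Icc a b)) (h0 : ∀ p ∈ W, g p a ≤ 0)
    (hs : ∀ τ ∈ Ico a b, (∀ p ∈ W, g p τ ≤ 0) → ∀ p ∈ W, g p τ = 0 →
      ∀ᶠ s in 𝓝[>] τ, g p s ≤ 0) :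
    ∀ τ ∈ Icc a b, ∀ p ∈ W, g p τ ≤ 0 := by
  have hcl : IsClosed ({τ | ∀ p ∈ W, g p τ ≤ 0} ∩ Icc a b) := by
    have h1 : {τ | ∀ p ∈ W, g p τ ≤ 0} ∩ Icc a b =
        Icc a b ∩ ⋂ p ∈ W, (Icc a b ∩ g p ⁻¹' Iic 0) := by
      ext τ
      simp only [mem_inter_iff, mem_setOf_eq, mem_iInter, mem_preimage, mem_Iic]
      exact ⟨fun h => ⟨h.2, fun p hp => ⟨h.2, h.1 p hp⟩⟩, fun h => ⟨fun p hp => (h.2 p hp).2, h.1⟩⟩
    rw [h1]
    exact isClosed_Icc.inter (isClosed_biInter fun p hp =>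
      (hc p hp).preimage_isClosed_of_isClosed isClosed_Icc isClosed_Iic)
  refine hcl.Icc_subset_of_forall_mem_nhdsWithin h0 fun τ hτ => ?_
  refine (eventually_all_finite hW).2 fun p hp => ?_
  rcases (hτ.1 p hp).lt_or_eq with h | h
  · have h1 := (hc p hp τ (Ico_subset_Icc_self hτ.2)).eventually (gt_mem_nhds h)
    exact (h1.filter_mono (nhdsWithin_le_of_mem (Icc_mem_nhdsGT_of_mem hτ.2))).mono
      fun s hs => hs.le
  · exact hs τ hτ.2 hτ.1 p hp h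

/-- the dot product as a continuous functional. -/
noncomputable def dotL (w : Fin d → ℝ) : (Fin d → ℝ) →L[ℝ] ℝ :=
  ∑ i, w i • ContinuousLinearMap.proj i

theorem dotL_apply (w v : Fin d → ℝ) : dotL w v = w ⬝ᵥ v := by
  simp [dotL, dotProduct]

theorem IsIntSol.sub {F : ℝ → (Fin d → ℝ) → (Fin d → ℝ)} {x : ℝ → Fin d → ℝ} {I : Set ℝ}
    (h : IsIntSol F x I) {a b : ℝ} (ha : a ∈ I) (hb : b ∈ I) :
    IntervalIntegrable (fun s => F s (x s)) volume a b ∧ x b - x a = ∫ s in a..b, F s (x s) := by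
  refine ⟨(h a ha).1.symm.trans (h b hb).1, ?_⟩
  rw [← intervalIntegral.integral_interval_sub_left (h b hb).1 (h a ha).1, (h a ha).2, (h b hb).2]
  abel

theorem dot_le {F : ℝ → (Fin d → ℝ) → (Fin d → ℝ)} {x : ℝ → Fin d → ℝ} {I : Set ℝ}
    (h : IsIntSol F x I) {a b : ℝ} (ha : a ∈ I) (hb : b ∈ I) (hab : a ≤ b) {w : Fin d → ℝ}
    {η : ℝ} (hw : ∀ s ∈ Ioo a b, w ⬝ᵥ F s (x s) ≤ -η) :
    w ⬝ᵥ x b ≤ w ⬝ᵥ x a - η * (b - a) := by
  obtain ⟨h1, h2⟩ := h.sub ha hb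
  have h3 : dotL w (x b - x a) = ∫ s in a..b, dotL w (F s (x s)) := by
    rw [h2, (dotL w).intervalIntegral_comp_comm h1]
  have h4 : ∫ s in a..b, dotL w (F s (x s)) ≤ ∫ _ in a..b, -η :=
    intervalIntegral.integral_mono_on_of_le_Ioo hab
      ⟨(dotL w).integrable_comp h1.1, (dotL w).integrable_comp h1.2⟩ intervalIntegrable_const
      fun s hs => by rw [dotL_apply]; exact hw s hs
  rw [← h3, dotL_apply, dotProduct_sub] at h4
  simp only [intervalIntegral.integral_const, smul_eq_mul] at h4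
  linarith

theorem IsIntSol.mem_span {F : ℝ → (Fin d → ℝ) → (Fin d → ℝ)} {x : ℝ → Fin d → ℝ} {I : Set ℝ}
    (h : IsIntSol F x I) {S : Submodule ℝ (Fin d → ℝ)} (hS : ∀ s y, F s y ∈ S) {t : ℝ}
    (ht : t ∈ I) : x t - x 0 ∈ S := by
  rw [← Subspace.forall_mem_dualAnnihilator_apply_eq_zero_iff]
  intro φ hφ
  rw [Submodule.mem_dualAnnihilator] at hφ
  have h1 := (LinearMap.toContinuousLinearMap φ).intervalIntegral_comp_comm (h t ht).1
  have h2 : x t - x 0 = ∫ s in (0 : ℝ)..t, F s (x s) := by rw [(h t ht).2]; abel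
  rw [h2]
  simp only [LinearMap.coe_toContinuousLinearMap', hφ _ (hS _ _),
    intervalIntegral.integral_zero] at h1
  exact h1.symm

theorem barrier {F : ℝ → (Fin d → ℝ) → (Fin d → ℝ)} {x : ℝ → Fin d → ℝ} {T t0 t1 e η Λ : ℝ}
    {W : Set (Pc (Fin d))} (hW : W.Finite) {P : Set (Fin d → ℝ)} (ht : t0 ≤ t1) (he : 0 ≤ e)
    (hΛ : 0 ≤ Λ) (heΛ : Λ * e ≤ η) (hcont : ∀ p ∈ W, Continuous p.2)
    (hLip : ∀ p ∈ W, ∀ s ∈ Icc t0 t1, ∀ s' ∈ Icc t0 t1, |p.2 s - p.2 s'| ≤ Λ * |s - s'|)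
    (hflux : ∀ p ∈ W, ∀ s ∈ Icc t0 t1, ∀ z ∈ P, Sat W s z → val p s z = 0 →
      ∀ᶠ z' in 𝓝 z, ∀ σ, 0 ≤ σ → p.1 ⬝ᵥ F σ z' ≤ -η)
    (hx : IsIntSol F x (Icc 0 T)) (hP : ∀ τ ∈ Icc 0 T, x τ ∈ P) (h0 : Sat W t1 (x 0)) :
    ∀ τ ∈ Icc 0 T, Sat W (max t0 (t1 - e * τ)) (x τ) := by
  rcases lt_or_ge T 0 with hT | hT
  · intro τ hτ
    exact absurd (hτ.1.trans hτ.2) (not_le.2 hT)
  have hxc := hx.cont hT
  have hmem : ∀ τ, 0 ≤ τ → max t0 (t1 - e * τ) ∈ Icc t0 t1 := fun τ hτ =>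
    ⟨le_max_left _ _, max_le ht (by nlinarith)⟩
  refine real_ind hW (g := fun p τ => val p (max t0 (t1 - e * τ)) (x τ)) (fun p hp => ?_)
    (fun p hp => by simpa [max_eq_right ht] using h0 p hp) fun τ hτ hsat p hp hact => ?_
  · have h1 : Continuous fun τ : ℝ => max t0 (t1 - e * τ) := by fun_prop
    exact (continuousOn_finset_sum _ fun i _ => continuousOn_const.mul
      ((continuous_apply i).comp_continuousOn hxc)).sub ((hcont p hp).comp h1).continuousOn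
  · have h1 := hflux p hp _ (hmem τ hτ.1) _ (hP τ (Ico_subset_Icc_self hτ)) hsat hact
    have h2 := ((hxc τ (Ico_subset_Icc_self hτ)).eventually h1).filter_mono
      (nhdsWithin_le_of_mem (Icc_mem_nhdsGT_of_mem hτ))
    obtain ⟨u, hu, hsub⟩ := mem_nhdsGT_iff_exists_Ioc_subset.1 h2
    filter_upwards [Ioc_mem_nhdsGT hu, Icc_mem_nhdsGT_of_mem hτ] with s hs hsT
    have h3 := dot_le hx (Ico_subset_Icc_self hτ) hsT hs.1.le (w := p.1) (η := η)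
      fun σ hσ => hsub ⟨hσ.1, hσ.2.le.trans hs.2⟩ σ (hτ.1.trans hσ.1.le)
    have h4 := hLip p hp _ (hmem τ hτ.1) _ (hmem s hsT.1)
    have h5 : |max t0 (t1 - e * τ) - max t0 (t1 - e * s)| ≤ e * (s - τ) := by
      rw [max_comm t0, max_comm t0]
      refine (abs_max_sub_max_le_abs _ _ _).trans (le_of_eq ?_)
      rw [abs_of_nonneg (by nlinarith [hs.1])]
      ring
    have h6 := mul_le_mul_of_nonneg_left h5 hΛ
    have h7 := le_abs_self (p.2 (max t0 (t1 - e * τ)) - p.2 (max t0 (t1 - e * s)))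
    have h8 := mul_le_mul_of_nonneg_right heΛ (sub_nonneg.2 hs.1.le)
    change p.1 ⬝ᵥ x τ - p.2 _ = 0 at hact
    change p.1 ⬝ᵥ x s - p.2 _ ≤ 0
    nlinarith

end Vale.Agent.P072
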