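import Mathlib

/-! Affine pieces with time dependent constants, and the two inductive properties. -/

open Filter Real Finset

namespace Vale.Agent.P072

variable {ι : Type*} [Fintype ι]

abbrev Pc (ι : Type*) := (ι → ℝ) × (ℝ → ℝ)

def val (p : Pc ι) (t : ℝ) (x : ι → ℝ) : ℝ := ∑ i, p.1 i * x i - p.2 t

def Bd (c : ℝ → ℝ) (γ : ℝ) : Prop := ∀ γ', γ < γ' → ∀ᶠ t in atTop, |c t| ≤ exp (t * γ')

structure Ok (R : Finset ι) (p : Pc ι) (γ : ℝ) : Prop where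
  smooth : ContDiff ℝ 1 p.2
  nonpos : ∀ i, p.1 i ≤ 0
  supp : ∀ i, i ∉ R → p.1 i = 0
  bd : Bd p.2 γ

def IsTop' (F : Set (Pc ι)) (p : Pc ι) (t : ℝ) (x : ι → ℝ) : Prop :=
  p ∈ F ∧ ∀ q ∈ F, val q t x ≤ val p t x

def Star' (R : Finset ι) (A : Set ((ι → ℝ) × ℝ)) (α : ℝ) (b : ι → ℝ) (t : ℝ) (x : ι → ℝ)
    (μ : ℝ) : Prop :=
  ∀ a ∈ A, 0 < ∑ i ∈ R, a.1 i * (α + b i) + a.2 → μ * t ≤ ∑ i ∈ R, a.1 i * log (x i) + a.2 * t

theorem exp_dom {a b κ : ℝ} (hab : a < b) (C : ℝ) (hκ : 0 < κ) :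
    ∀ᶠ t in atTop, C * exp (t * a) < κ * exp (t * b) := by
  have h1 : Tendsto (fun t : ℝ => exp (t * (b - a))) atTop atTop :=
    tendsto_exp_atTop.comp (tendsto_id.atTop_mul_const (sub_pos.2 hab))
  filter_upwards [h1.eventually_gt_atTop (C / κ)] with t ht
  have h2 : exp (t * b) = exp (t * (b - a)) * exp (t * a) := by
    rw [← exp_add]; ring_nf
  rw [h2, ← mul_assoc]
  apply mul_lt_mul_of_pos_right _ (exp_pos _)
  rw [div_lt_iff₀ hκ] at ht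
  linarith

theorem exp_mono' {a b t : ℝ} (hab : a ≤ b) (ht : 0 ≤ t) : exp (t * a) ≤ exp (t * b) :=
  exp_le_exp.2 (mul_le_mul_of_nonneg_left hab ht)

theorem Bd.mono {c : ℝ → ℝ} {γ γ' : ℝ} (h : Bd c γ) (hγ : γ ≤ γ') : Bd c γ' :=
  fun g hg => h g (lt_of_le_of_lt hγ hg)

theorem Bd.zero (γ : ℝ) : Bd (0 : ℝ → ℝ) γ := fun g _ =>
  Eventually.of_forall fun t => by simpa using (exp_pos _).le

theorem Bd.add {c d : ℝ → ℝ} {γ : ℝ} (h : Bd c γ) (h' : Bd d γ) : Bd (c + d) γ := by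
  intro g hg
  have hm : γ < (γ + g) / 2 := by linarith
  have hm' : (γ + g) / 2 < g := by linarith
  filter_upwards [h _ hm, h' _ hm, exp_dom hm' 2 one_pos] with t h1 h2 h3
  have := abs_add_le (c t) (d t)
  simp only [Pi.add_apply]
  linarith

theorem Bd.exp (C θ : ℝ) : Bd (fun t => C * exp (t * θ)) θ := by
  intro g hg
  filter_upwards [exp_dom hg |C| one_pos] with t h1
  rw [abs_mul, abs_of_pos (exp_pos _)]
  linarith

theorem smooth_exp (C θ : ℝ) : ContDiff ℝ 1 (fun t : ℝ => C * exp (t * θ)) := by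
  fun_prop

omit [Fintype ι] in
theorem Ok.zero (R : Finset ι) (γ : ℝ) : Ok R (0 : Pc ι) γ :=
  ⟨contDiff_const, fun _ => le_rfl, fun _ _ => rfl, Bd.zero γ⟩

omit [Fintype ι] in
theorem Ok.mono {R R' : Finset ι} {p : Pc ι} {γ γ' : ℝ} (h : Ok R p γ) (hR : R ⊆ R')
    (hγ : γ ≤ γ') : Ok R' p γ' :=
  ⟨h.smooth, h.nonpos, fun i hi => h.supp i fun hh => hi (hR hh), h.bd.mono hγ⟩

omit [Fintype ι] in
theorem Ok.add {R : Finset ι} {p q : Pc ι} {γ : ℝ} (h : Ok R p γ) (h' : Ok R q γ) :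
    Ok R (p + q) γ :=
  ⟨h.smooth.add h'.smooth, fun i => add_nonpos (h.nonpos i) (h'.nonpos i),
    fun i hi => by simp [h.supp i hi, h'.supp i hi], h.bd.add h'.bd⟩

@[simp] theorem val_zero (t : ℝ) (x : ι → ℝ) : val (0 : Pc ι) t x = 0 := by simp [val]

theorem val_add (p q : Pc ι) (t : ℝ) (x : ι → ℝ) :
    val (p + q) t x = val p t x + val q t x := by
  simp only [val, Prod.fst_add, Prod.snd_add, Pi.add_apply, add_mul, sum_add_distrib]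
  ring

theorem Ok.val_le {R : Finset ι} {p : Pc ι} {γ γ' : ℝ} (h : Ok R p γ) (hγ : γ < γ') :
    ∀ᶠ t in atTop, ∀ x : ι → ℝ, (∀ i, 0 < x i) → val p t x ≤ exp (t * γ') := by
  filter_upwards [h.bd γ' hγ] with t ht x hx
  have h1 : ∑ i, p.1 i * x i ≤ 0 :=
    sum_nonpos fun i _ => mul_nonpos_of_nonpos_of_nonneg (h.nonpos i) (hx i).le
  have h2 := neg_abs_le (p.2 t)
  unfold val
  linarith

theorem fam_val_le {R : Finset ι} {F : Set (Pc ι)} (hF : F.Finite) {γ γ' : ℝ}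
    (h : ∀ p ∈ F, Ok R p γ) (hγ : γ < γ') :
    ∀ᶠ t in atTop, ∀ p ∈ F, ∀ x : ι → ℝ, (∀ i, 0 < x i) → val p t x ≤ exp (t * γ') :=
  (eventually_all_finite hF).2 fun p hp => (h p hp).val_le hγ

open Classical in
/-- the piece with constant slope `s` on `R`. -/
noncomputable def pure' (R : Finset ι) (s : ℝ) (c : ℝ → ℝ) : Pc ι :=
  (fun i => if i ∈ R then s else 0, c)

theorem val_pure (R : Finset ι) (s : ℝ) (c : ℝ → ℝ) (t : ℝ) (x : ι → ℝ) :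
    val (pure' R s c) t x = s * ∑ i ∈ R, x i - c t := by
  classical
  simp only [val, pure', ite_mul, zero_mul]
  rw [Finset.sum_ite_mem, univ_inter, mul_sum]

omit [Fintype ι] in
theorem pure_fst_mem {R : Finset ι} (s : ℝ) (c : ℝ → ℝ) {i : ι} (hi : i ∈ R) :
    (pure' R s c).1 i = s := by simp [pure', hi]

omit [Fintype ι] in
theorem pure_fst_not {R : Finset ι} (s : ℝ) (c : ℝ → ℝ) {i : ι} (hi : i ∉ R) :
    (pure' R s c).1 i = 0 := by simp [pure', hi]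

omit [Fintype ι] in
theorem Ok.pure {R : Finset ι} {s γ : ℝ} {c : ℝ → ℝ} (hs : s ≤ 0) (hc : ContDiff ℝ 1 c)
    (hb : Bd c γ) : Ok R (pure' R s c) γ := by
  refine ⟨hc, fun i => ?_, fun i hi => pure_fst_not s c hi, hb⟩
  by_cases hi : i ∈ R
  · rw [pure_fst_mem s c hi]; exact hs
  · rw [pure_fst_not s c hi]

omit [Fintype ι] in
theorem Star'.mono {R : Finset ι} {A : Set ((ι → ℝ) × ℝ)} {α : ℝ} {b : ι → ℝ} {t : ℝ}
    {x : ι → ℝ} {μ μ' : ℝ} (h : Star' R A α b t x μ) (hμ : μ' ≤ μ) (ht : 0 ≤ t) :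
    Star' R A α b t x μ' := fun a ha h0 =>
  (mul_le_mul_of_nonneg_right hμ ht).trans (h a ha h0)

/-- the scale property. -/
def SProp (R : Finset ι) : Prop :=
  ∀ (A : Set ((ι → ℝ) × ℝ)), A.Finite → ∀ α L : ℝ, ∃ μ : ℝ, 0 < μ ∧ ∃ F : Set (Pc ι), F.Finite ∧
    (0 : Pc ι) ∈ F ∧ (∀ p ∈ F, Ok R p (α - μ)) ∧
    ∀ᶠ t in atTop, ∀ x : ι → ℝ, (∀ i, 0 < x i) → (∀ i ∈ R, exp (t * L) ≤ x i) →
      exp (t * (α - μ)) ≤ ∑ i ∈ R, x i → ∑ i ∈ R, x i ≤ exp (t * (α + μ)) →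
      ∀ p, IsTop' F p t x → Star' R A α p.1 t x μ

/-- the ladder property. -/
def GProp (R : Finset ι) : Prop :=
  ∀ (A : Set ((ι → ℝ) × ℝ)), A.Finite → ∀ α θ L : ℝ, θ < α → ∃ μ : ℝ, 0 < μ ∧
    ∃ F : Set (Pc ι), F.Finite ∧ (∀ p ∈ F, Ok R p θ) ∧
    (∃ κ : ℝ, 0 < κ ∧ ∃ q ∈ F, ∀ t, ∀ x : ι → ℝ, ∑ i ∈ R, x i ≤ exp (t * θ) / 2 →
      κ * exp (t * θ) ≤ val q t x) ∧
    ∀ᶠ t in atTop, ∀ x : ι → ℝ, (∀ i, 0 < x i) → (∀ i ∈ R, exp (t * L) ≤ x i) →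
      ∀ p, IsTop' F p t x → p = 0 ∨
        (∑ i ∈ R, x i ≤ 2 * exp (t * θ) ∧ Star' R A α p.1 t x μ)

theorem exists_pos_le {σ : Type*} {S : Set σ} (hS : S.Finite) (f : σ → ℝ)
    (hf : ∀ s ∈ S, 0 < f s) : ∃ m : ℝ, 0 < m ∧ ∀ s ∈ S, m ≤ f s := by
  induction S, hS using Set.Finite.induction_on with
  | empty => exact ⟨1, one_pos, fun s hs => absurd hs (Set.notMem_empty s)⟩
  | @insert a S _ _ ih =>
    obtain ⟨m, hm, h⟩ := ih fun s hs => hf s (Set.mem_insert_of_mem _ hs)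
    refine ⟨min m (f a), lt_min hm (hf a (Set.mem_insert _ _)), fun s hs => ?_⟩
    rcases hs with rfl | hs
    · exact min_le_right _ _
    · exact (min_le_left _ _).trans (h s hs)

theorem exists_bound {σ : Type*} {S : Set σ} (hS : S.Finite) (f : σ → ℝ) :
    ∃ K : ℝ, 0 < K ∧ ∀ s ∈ S, f s ≤ K := by
  obtain ⟨K, hK⟩ := (hS.image f).bddAbove
  exact ⟨max K 1, lt_max_of_lt_right one_pos,
    fun s hs => (hK (Set.mem_image_of_mem f hs)).trans (le_max_left _ _)⟩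

end Vale.Agent.P072
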