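import Mathlib

/-! Mass-action systems. -/

open MeasureTheory

namespace Vale.Agent.P072

/-- The reaction vector `y' - y` of the reaction `r = (y, y')`. -/
def reactVec {d : ℕ} (r : (Fin d → ℕ) × (Fin d → ℕ)) : Fin d → ℝ :=
  fun i => (r.2 i : ℝ) - (r.1 i : ℝ)

/-- The mass-action vector field. -/
def massAction {d : ℕ} (R : Finset ((Fin d → ℕ) × (Fin d → ℕ)))
    (k : (Fin d → ℕ) × (Fin d → ℕ) → ℝ) (x : Fin d → ℝ) : Fin d → ℝ :=
  ∑ r ∈ R, (k r * ∏ i, x i ^ r.1 i) • reactVec r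

/-- Every reaction `y → y'` has a directed return path from `y'` to `y`. -/
def WeaklyReversible {d : ℕ} (R : Finset ((Fin d → ℕ) × (Fin d → ℕ))) : Prop :=
  ∀ r ∈ R, Relation.TransGen (fun y y' => (y, y') ∈ R) r.2 r.1

/-- The positive stoichiometric class of `c`. -/
def posClass {d : ℕ} (R : Finset ((Fin d → ℕ) × (Fin d → ℕ))) (c : Fin d → ℝ) :
    Set (Fin d → ℝ) :=
  {x | x - c ∈ Submodule.span ℝ (reactVec '' (R : Set ((Fin d → ℕ) × (Fin d → ℕ)))) ∧
    ∀ i, 0 < x i}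

/-- Solutions in the integral (Caratheodory) sense on a set of times. -/
def IsIntSol {d : ℕ} (F : ℝ → (Fin d → ℝ) → (Fin d → ℝ)) (x : ℝ → Fin d → ℝ) (I : Set ℝ) :
    Prop :=
  ∀ t ∈ I, IntervalIntegrable (fun s => F s (x s)) volume 0 t ∧
    x t = x 0 + ∫ s in (0 : ℝ)..t, F s (x s)

end Vale.Agent.P072
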