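import Vale.Agent.P072.Main

/-! The two forms of permanence. -/

open MeasureTheory Set Real Filter Topology

namespace Vale.Agent.P072

variable {d : ℕ}

theorem mass_cont (R : Finset ((Fin d → ℕ) × (Fin d → ℕ)))
    (k : (Fin d → ℕ) × (Fin d → ℕ) → ℝ) : Continuous (massAction R k) := by
  unfold massAction
  fun_prop

theorem deriv_of_int {f : (Fin d → ℝ) → Fin d → ℝ} (hf : Continuous f) {x : ℝ → Fin d → ℝ}
    (h : IsIntSol (fun _ => f) x (Ici 0)) (t : ℝ) (ht : 0 ≤ t) :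
    HasDerivWithinAt x (f (x t)) (Ici 0) t := by
  have hc : ContinuousOn x (Ici 0) := fun s hs =>
    (((h.mono Icc_subset_Ici_self).cont (T := s + 1) (by linarith [mem_Ici.1 hs])) s
      ⟨hs, by linarith⟩).mono_of_mem_nhdsWithin
      (inter_mem_nhdsWithin (Ici 0) (Iic_mem_nhds (by linarith)))
  have hm : Continuous fun s : ℝ => max s 0 := by fun_prop
  have hg : Continuous fun s => f (x (max s 0)) :=
    hf.comp (hc.comp_continuous hm fun s => le_max_right s 0)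
  have h1 := (intervalIntegral.integral_hasDerivAt_right (hg.intervalIntegrable 0 t)
    (hg.stronglyMeasurableAtFilter _ _) hg.continuousAt).const_add (x 0)
  rw [max_eq_left ht] at h1
  have h2 : ∀ s ∈ Ici (0 : ℝ), x s = x 0 + ∫ u in (0 : ℝ)..s, f (x (max u 0)) := by
    intro s hs
    rw [(h s hs).2]
    congr 1
    refine intervalIntegral.integral_congr fun u hu => ?_
    rw [uIcc_of_le hs] at hu
    simp only [max_eq_left hu.1]
  exact h1.hasDerivWithinAt.congr h2 (h2 t ht)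

theorem int_of_deriv {f : (Fin d → ℝ) → Fin d → ℝ} (hf : Continuous f) {y : ℝ → Fin d → ℝ}
    {T : ℝ} (h : ∀ t ∈ Ico 0 T, HasDerivWithinAt y (f (y t)) (Ico 0 T) t) :
    IsIntSol (fun _ => f) y (Ico 0 T) := by
  intro t ht
  have hc : ContinuousOn y (Icc 0 t) :=
    ContinuousOn.mono (fun s hs => (h s hs).continuousWithinAt) (Icc_subset_Ico_right ht.2)
  have hi : IntervalIntegrable (fun s => f (y s)) volume 0 t :=
    (hf.comp_continuousOn hc).intervalIntegrable_of_Icc ht.1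
  refine ⟨hi, ?_⟩
  rw [intervalIntegral.integral_eq_sub_of_hasDeriv_right_of_le ht.1 hc (fun s hs =>
    ((h s ⟨hs.1.le, hs.2.trans ht.2⟩).hasDerivAt
      (Ico_mem_nhds hs.1 (hs.2.trans ht.2))).hasDerivWithinAt) hi]
  abel

theorem perm_var {R : Finset ((Fin d → ℕ) × (Fin d → ℕ))} (hR : WeaklyReversible R) {ε : ℝ}
    (hε : 0 < ε) {c : Fin d → ℝ} (hc : ∀ i, 0 < c i) :
    ∃ K : Set (Fin d → ℝ), IsCompact K ∧ K ⊆ posClass R c ∧
      ∀ k : ℝ → (Fin d → ℕ) × (Fin d → ℕ) → ℝ, (∀ r ∈ R, Measurable fun t => k t r) →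
      (∀ t, 0 ≤ t → ∀ r ∈ R, ε ≤ k t r ∧ k t r ≤ ε⁻¹) → ∀ x0 ∈ posClass R c,
      ∃ x : ℝ → Fin d → ℝ, x 0 = x0 ∧ IsIntSol (fun t => massAction R (k t)) x (Ici 0) ∧
        (∀ t, 0 ≤ t → x t ∈ posClass R c) ∧ (∃ T, ∀ t, T ≤ t → x t ∈ K) ∧
        ∀ T y, y 0 = x0 → IsIntSol (fun t => massAction R (k t)) y (Ico 0 T) →
          ∀ t ∈ Ico 0 T, y t = x t := by
  obtain ⟨K, h1, h2, h3⟩ := core hR hε (inv_pos.2 hε) hc
  refine ⟨K, h1, h2, fun k hm hk x0 hx0 => ?_⟩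
  obtain ⟨x, h4, h5, h6, h7, h8⟩ := h3 (fun t => k (max t 0))
    (fun r hr => (hm r hr).comp (measurable_id.max measurable_const))
    (fun t => hk _ (le_max_right _ _)) x0 hx0
  refine ⟨x, h4, h5.congr fun t ht => ⟨ht, fun s hs => by simp only [max_eq_left hs.1]⟩, h6, h7,
    fun T y hy0 hy t ht => h8 t y hy0 ?_ t ⟨ht.1, le_rfl⟩⟩
  exact (hy.mono (Icc_subset_Ico_right ht.2)).congr fun u hu =>
    ⟨hu.1, fun s hs => by simp only [max_eq_left hs.1]⟩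

theorem perm_const {R : Finset ((Fin d → ℕ) × (Fin d → ℕ))} (hR : WeaklyReversible R)
    {k : (Fin d → ℕ) × (Fin d → ℕ) → ℝ} (hk : ∀ r ∈ R, 0 < k r) {c : Fin d → ℝ}
    (hc : ∀ i, 0 < c i) :
    ∃ K : Set (Fin d → ℝ), IsCompact K ∧ K ⊆ posClass R c ∧ ∀ x0 ∈ posClass R c,
      ∃ x : ℝ → Fin d → ℝ, x 0 = x0 ∧
        (∀ t, 0 ≤ t → HasDerivWithinAt x (massAction R k (x t)) (Ici 0) t) ∧
        (∀ t, 0 ≤ t → x t ∈ posClass R c) ∧ (∃ T, ∀ t, T ≤ t → x t ∈ K) ∧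
        ∀ (T : ℝ) (y : ℝ → Fin d → ℝ), y 0 = x0 →
          (∀ t ∈ Ico 0 T, HasDerivWithinAt y (massAction R k (y t)) (Ico 0 T) t) →
          ∀ t ∈ Ico 0 T, y t = x t := by
  obtain ⟨lo, hlo, h0⟩ := exists_pos_le R.finite_toSet k hk
  obtain ⟨hi, hhi, h0'⟩ := exists_bound R.finite_toSet k
  obtain ⟨K, h1, h2, h3⟩ := core hR hlo hhi hc
  refine ⟨K, h1, h2, fun x0 hx0 => ?_⟩
  obtain ⟨x, h4, h5, h6, h7, h8⟩ := h3 (fun _ => k) (fun r _ => measurable_const)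
    (fun _ r hr => ⟨h0 r hr, h0' r hr⟩) x0 hx0
  exact ⟨x, h4, deriv_of_int (mass_cont R k) h5, h6, h7, fun T y hy0 hy t ht => h8 t y hy0
    ((int_of_deriv (mass_cont R k) hy).mono (Icc_subset_Ico_right ht.2)) t ⟨ht.1, le_rfl⟩⟩

end Vale.Agent.P072
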