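import Vale.Agent.P072.Defs

/-! Existence and uniqueness of integral solutions for bounded Lipschitz fields. -/

open MeasureTheory Set Real Filter Topology BoundedContinuousFunction

namespace Vale.Agent.P072

variable {d : ℕ}

theorem IsIntSol.mono {F : ℝ → (Fin d → ℝ) → (Fin d → ℝ)} {x : ℝ → Fin d → ℝ} {I J : Set ℝ}
    (h : IsIntSol F x I) (hJ : J ⊆ I) : IsIntSol F x J := fun t ht => h t (hJ ht)

theorem IsIntSol.cont {F : ℝ → (Fin d → ℝ) → (Fin d → ℝ)} {x : ℝ → Fin d → ℝ} {T : ℝ}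
    (h : IsIntSol F x (Icc 0 T)) (hT : 0 ≤ T) : ContinuousOn x (Icc 0 T) := by
  have h1 := intervalIntegral.continuousOn_primitive_interval' (h T ⟨hT, le_rfl⟩).1 left_mem_uIcc
  rw [uIcc_of_le hT] at h1
  exact (continuousOn_const.add h1).congr fun t ht => (h t ht).2

theorem int_weight {G G' : ℝ → Fin d → ℝ} {t L M : ℝ} (hG : IntervalIntegrable G volume 0 t)
    (hG' : IntervalIntegrable G' volume 0 t) (ht : 0 ≤ t) (hL : 0 ≤ L) (hM : 0 ≤ M)
    (h : ∀ s ∈ Icc 0 t, ‖G s - G' s‖ ≤ L * (M * exp ((2 * L + 1) * s))) :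
    ‖(∫ s in (0 : ℝ)..t, G s) - ∫ s in (0 : ℝ)..t, G' s‖ ≤ M / 2 * exp ((2 * L + 1) * t) := by
  rw [← intervalIntegral.integral_sub hG hG']
  have h1 : ∫ s in (0 : ℝ)..t, M / 2 * ((2 * L + 1) * exp ((2 * L + 1) * s)) =
      M / 2 * exp ((2 * L + 1) * t) - M / 2 * exp ((2 * L + 1) * 0) := by
    apply intervalIntegral.integral_eq_sub_of_hasDerivAt
      (f := fun s => M / 2 * exp ((2 * L + 1) * s))
    · intro s _
      have h2 : HasDerivAt (fun s => (2 * L + 1) * s) (2 * L + 1) s := by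
        simpa using (hasDerivAt_id s).const_mul (2 * L + 1)
      exact (h2.exp.const_mul (M / 2)).congr_deriv (by ring)
    · exact Continuous.intervalIntegrable (by fun_prop) _ _
  refine (intervalIntegral.norm_integral_le_of_norm_le ht (Eventually.of_forall fun s hs => ?_)
    (g := fun s => M / 2 * ((2 * L + 1) * exp ((2 * L + 1) * s)))
    (Continuous.intervalIntegrable (by fun_prop) _ _)).trans ?_
  · refine (h s (Ioc_subset_Icc_self hs)).trans ?_
    have := mul_nonneg hM (exp_pos ((2 * L + 1) * s)).le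
    nlinarith
  · rw [h1]
    have := mul_nonneg hM (exp_pos ((2 * L + 1) * 0)).le
    linarith

theorem unique_sol {F : ℝ → (Fin d → ℝ) → (Fin d → ℝ)} {x y : ℝ → Fin d → ℝ} {T : ℝ}
    {L : NNReal} (hL : ∀ s, LipschitzWith L (F s)) (hx : IsIntSol F x (Icc 0 T))
    (hy : IsIntSol F y (Icc 0 T)) (h0 : x 0 = y 0) : ∀ t ∈ Icc 0 T, x t = y t := by
  intro t ht
  have hT : 0 ≤ T := ht.1.trans ht.2
  have hc : ContinuousOn (fun s => ‖x s - y s‖ * exp (-((2 * L + 1) * s))) (Icc 0 T) :=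
    ((hx.cont hT).sub (hy.cont hT)).norm.mul (Continuous.continuousOn (by fun_prop))
  obtain ⟨u, hu, hmax⟩ := isCompact_Icc.exists_isMaxOn (nonempty_Icc.2 hT) hc
  set M := ‖x u - y u‖ * exp (-((2 * L + 1) * u)) with hM
  have hM0 : 0 ≤ M := by positivity
  have hb : ∀ s ∈ Icc 0 T, ‖x s - y s‖ ≤ M * exp ((2 * L + 1) * s) := by
    intro s hs
    have h1 : ‖x s - y s‖ * exp (-((2 * L + 1) * s)) ≤ M := hmax hs
    rwa [exp_neg, ← div_eq_mul_inv, div_le_iff₀ (exp_pos _)] at h1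
  have h2 := int_weight (hx u hu).1 (hy u hu).1 hu.1 L.coe_nonneg hM0 fun s hs => by
    have h3 := (hL s).dist_le_mul (x s) (y s)
    rw [dist_eq_norm, dist_eq_norm] at h3
    exact h3.trans (mul_le_mul_of_nonneg_left (hb s ⟨hs.1, hs.2.trans hu.2⟩) L.coe_nonneg)
  have h3 : x u - y u = (∫ s in (0 : ℝ)..u, F s (x s)) - ∫ s in (0 : ℝ)..u, F s (y s) := by
    rw [(hx u hu).2, (hy u hu).2, h0]; abel
  rw [← h3] at h2
  have h4 : M ≤ M / 2 := by
    have h5 := mul_le_mul_of_nonneg_right h2 (exp_pos (-((2 * L + 1) * u))).le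
    rw [mul_assoc, ← exp_add] at h5
    simpa using h5
  have h5 : M = 0 := by linarith
  have h6 := hb t ht
  rw [h5, zero_mul] at h6
  exact sub_eq_zero.1 (norm_le_zero_iff.1 h6)

section ex

variable {F : ℝ → (Fin d → ℝ) → (Fin d → ℝ)} {B : ℝ} {L : NNReal}

theorem ii_of_bound (hm : ∀ x : ℝ → Fin d → ℝ, Continuous x →
      AEStronglyMeasurable (fun s => F s (x s)) volume) (hB : ∀ s y, ‖F s y‖ ≤ B)
    {x : ℝ → Fin d → ℝ} (hx : Continuous x) (a b : ℝ) :
    IntervalIntegrable (fun s => F s (x s)) volume a b :=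
  (intervalIntegrable_const (c := B)).mono_fun' (hm x hx).restrict
    (Eventually.of_forall fun s => hB s _)

/-- unweighting. -/
noncomputable def unw (l : ℝ) (y : ℝ →ᵇ (Fin d → ℝ)) (s : ℝ) : Fin d → ℝ :=
  exp (l * max s 0) • y s

theorem unw_cont (l : ℝ) (y : ℝ →ᵇ (Fin d → ℝ)) : Continuous (unw l y) := by
  unfold unw
  fun_prop

/-- the weighted Picard operator. -/
noncomputable def pic (hm : ∀ x : ℝ → Fin d → ℝ, Continuous x →
      AEStronglyMeasurable (fun s => F s (x s)) volume) (hB : ∀ s y, ‖F s y‖ ≤ B)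
    (L : NNReal) (x0 : Fin d → ℝ) (y : ℝ →ᵇ (Fin d → ℝ)) : ℝ →ᵇ (Fin d → ℝ) :=
  BoundedContinuousFunction.ofNormedAddCommGroup
    (fun t => exp (-((2 * L + 1) * max t 0)) •
      (x0 + ∫ s in (0 : ℝ)..(max t 0), F s (unw (2 * L + 1) y s)))
    (by
      have h1 := intervalIntegral.continuous_primitive
        (ii_of_bound hm hB (unw_cont (2 * L + 1) y)) 0
      have h2 : Continuous fun t : ℝ => max t 0 := by fun_prop
      have h3 : Continuous fun t : ℝ => exp (-((2 * (L : ℝ) + 1) * max t 0)) := by fun_prop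
      exact h3.smul (continuous_const.add (h1.comp h2)))
    (‖x0‖ + B)
    (by
      intro t
      have hu : 0 ≤ max t 0 := le_max_right _ _
      generalize max t 0 = u at hu
      have hB0 : 0 ≤ B := (norm_nonneg _).trans (hB 0 0)
      have h1 := intervalIntegral.norm_integral_le_of_norm_le_const (a := 0) (b := u)
        (f := fun s => F s (unw (2 * L + 1) y s)) fun s _ => hB s _
      rw [sub_zero, abs_of_nonneg hu] at h1
      have h2 := norm_add_le x0 (∫ s in (0 : ℝ)..u, F s (unw (2 * L + 1) y s))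
      have h3 : u + 1 ≤ exp ((2 * L + 1) * u) :=
        (add_one_le_exp u).trans (exp_le_exp.2 (by nlinarith [L.coe_nonneg, mul_nonneg L.coe_nonneg hu]))
      rw [norm_smul, Real.norm_eq_abs, abs_of_pos (exp_pos _), exp_neg,
        inv_mul_le_iff₀ (exp_pos _)]
      nlinarith [norm_nonneg x0, mul_le_mul_of_nonneg_right h3 (add_nonneg (norm_nonneg x0) hB0)])

theorem pic_contr (hm : ∀ x : ℝ → Fin d → ℝ, Continuous x →
      AEStronglyMeasurable (fun s => F s (x s)) volume) (hB : ∀ s y, ‖F s y‖ ≤ B)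
    (hL : ∀ s, LipschitzWith L (F s)) (x0 : Fin d → ℝ) :
    ContractingWith (1 / 2) (pic hm hB L x0) := by
  refine ⟨by norm_num, LipschitzWith.of_dist_le_mul fun y z => ?_⟩
  rw [BoundedContinuousFunction.dist_le (by positivity)]
  intro t
  have hu : 0 ≤ max t 0 := le_max_right _ _
  have h1 := int_weight (ii_of_bound hm hB (unw_cont (2 * L + 1) y) 0 (max t 0))
    (ii_of_bound hm hB (unw_cont (2 * L + 1) z) 0 (max t 0)) hu L.coe_nonneg (dist_nonneg (x := y) (y := z))
    fun s hs => by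
      have h3 := (hL s).dist_le_mul (unw (2 * L + 1) y s) (unw (2 * L + 1) z s)
      rw [dist_eq_norm] at h3
      refine h3.trans (mul_le_mul_of_nonneg_left ?_ L.coe_nonneg)
      rw [unw, unw, dist_smul₀, max_eq_left hs.1, Real.norm_eq_abs, abs_of_pos (exp_pos _),
        mul_comm]
      exact mul_le_mul_of_nonneg_right (dist_coe_le_dist s) (exp_pos _).le
  change dist (exp (-((2 * L + 1) * max t 0)) • (x0 + _)) (exp (-((2 * L + 1) * max t 0)) •
    (x0 + _)) ≤ _
  rw [dist_smul₀, dist_add_left, dist_eq_norm, Real.norm_eq_abs, abs_of_pos (exp_pos _), exp_neg,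
    inv_mul_le_iff₀ (exp_pos _)]
  refine h1.trans (le_of_eq ?_)
  push_cast
  ring

theorem exists_sol (hm : ∀ x : ℝ → Fin d → ℝ, Continuous x →
      AEStronglyMeasurable (fun s => F s (x s)) volume) (hB : ∀ s y, ‖F s y‖ ≤ B)
    (hL : ∀ s, LipschitzWith L (F s)) (x0 : Fin d → ℝ) :
    ∃ x : ℝ → Fin d → ℝ, x 0 = x0 ∧ IsIntSol F x (Ici 0) := by
  set y := (pic_contr hm hB hL x0).fixedPoint _ with hy
  have hfix : pic hm hB L x0 y = y := (pic_contr hm hB hL x0).fixedPoint_isFixedPt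
  have key : ∀ t, 0 ≤ t → unw (2 * L + 1) y t =
      x0 + ∫ s in (0 : ℝ)..t, F s (unw (2 * L + 1) y s) := by
    intro t ht
    have h1 : y t = exp (-((2 * L + 1) * max t 0)) •
        (x0 + ∫ s in (0 : ℝ)..(max t 0), F s (unw (2 * L + 1) y s)) := by
      conv_lhs => rw [← hfix]
      rfl
    conv_lhs => rw [unw, h1]
    rw [smul_smul, ← exp_add, max_eq_left ht]
    simp
  have h0 : unw (2 * L + 1) y 0 = x0 := by rw [key 0 le_rfl]; simp
  refine ⟨unw (2 * L + 1) y, h0, fun t ht => ⟨ii_of_bound hm hB (unw_cont _ _) _ _, ?_⟩⟩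
  rw [h0]
  exact key t ht

end ex

end Vale.Agent.P072
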