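import Vale.Agent.P072.Basic

/-! The ladder property follows from the scale property. -/

open Filter Real Finset

namespace Vale.Agent.P072

variable {ι : Type*} [Fintype ι]

structure Fam (R : Finset ι) (A : Set ((ι → ℝ) × ℝ)) (α θ0 L β θ : ℝ) (F : Set (Pc ι))
    (c : ℝ → ℝ) (s μ : ℝ) : Prop where
  hθβ : θ < β
  hβα : β ≤ α
  hθ0 : θ ≤ θ0
  fin : F.Finite
  ok : ∀ p ∈ F, Ok R p θ0
  mem : pure' R (β - α) c ∈ F
  hs : 0 < s
  hμ : 0 < μ
  dom : ∀ᶠ t in atTop, ∀ x : ι → ℝ, (∀ i, 0 < x i) → ∑ i ∈ R, x i ≤ exp (t * θ) →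
    ∀ p ∈ F, val p t x ≤ val (pure' R (β - α) c) t x + exp (t * (θ - s))
  valid : ∀ᶠ t in atTop, ∀ x : ι → ℝ, (∀ i, 0 < x i) → (∀ i ∈ R, exp (t * L) ≤ x i) →
    exp (t * (θ - s)) ≤ ∑ i ∈ R, x i → ∀ p, IsTop' F p t x → p = 0 ∨
      (∑ i ∈ R, x i ≤ 2 * exp (t * θ0) ∧ Star' R A α p.1 t x μ)

theorem val_next (R : Finset ι) (α β β' θ : ℝ) (c : ℝ → ℝ) (t : ℝ) (x : ι → ℝ) :
    val (pure' R (β' - α) (c + fun t => -(β - β') * exp (t * θ))) t x =
      val (pure' R (β - α) c) t x + (β - β') * (exp (t * θ) - ∑ i ∈ R, x i) := by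
  simp only [val_pure, Pi.add_apply]
  ring

omit [Fintype ι] in
theorem star_shift {R : Finset ι} {A : Set ((ι → ℝ) × ℝ)} {α β' : ℝ} {c : ℝ → ℝ} {q : Pc ι}
    {t : ℝ} {x : ι → ℝ} {μ : ℝ} (h : Star' R A β' q.1 t x μ) :
    Star' R A α (pure' R (β' - α) c + q).1 t x μ := by
  intro a ha h0
  apply h a ha
  convert h0 using 2
  refine sum_congr rfl fun i hi => ?_
  simp only [Prod.fst_add, Pi.add_apply, pure_fst_mem _ _ hi]
  ring

section step

variable {R : Finset ι} {A : Set ((ι → ℝ) × ℝ)} {α θ0 L β θ : ℝ} {F : Set (Pc ι)}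
  {c : ℝ → ℝ} {s μ : ℝ} {β' μ' : ℝ} {F' : Set (Pc ι)}

theorem step_dom (h : Fam R A α θ0 L β θ F c s μ) (hβ' : β' ≤ θ) (hμ' : 0 < μ')
    (hF' : F'.Finite) (hok : ∀ p ∈ F', Ok R p (β' - μ')) :
    ∀ᶠ t in atTop, ∀ x : ι → ℝ, (∀ i, 0 < x i) → ∑ i ∈ R, x i ≤ exp (t * (β' - μ' / 2)) →
      ∀ p ∈ F ∪ (fun q => pure' R (β' - α) (c + fun t => -(β - β') * exp (t * θ)) + q) '' F',
        val p t x ≤ val (pure' R (β' - α) (c + fun t => -(β - β') * exp (t * θ))) t x +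
          exp (t * (β' - μ' / 2 - μ' / 4)) := by
  have hb : 0 < β - β' := by linarith [h.hθβ]
  have e1 : β' - μ' / 2 < θ := by linarith
  have e2 : θ - s < θ := by linarith [h.hs]
  have e3 : β' - μ' < β' - μ' / 2 - μ' / 4 := by linarith
  filter_upwards [h.dom, exp_dom e1 2 one_pos, exp_dom e2 2 hb, fam_val_le hF' hok e3,
    eventually_ge_atTop 0] with t h1 h2 h3 h4 ht x hx hxs p hp
  have hpos := exp_pos (t * (β' - μ' / 2 - μ' / 4))
  rcases hp with hp | ⟨q, hq, rfl⟩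
  · have h5 := h1 x hx (hxs.trans (exp_mono' e1.le ht)) p hp
    rw [val_next]
    have h6 : exp (t * θ) / 2 ≤ exp (t * θ) - ∑ i ∈ R, x i := by linarith
    have h7 := mul_le_mul_of_nonneg_left h6 hb.le
    linarith
  · rw [val_add]
    linarith [h4 q hq x hx]

theorem step_valid (h : Fam R A α θ0 L β θ F c s μ) (hβ' : β' ≤ θ) (hμ' : 0 < μ')
    (hθ : θ < β' + μ') (hF' : F'.Finite) (h0 : (0 : Pc ι) ∈ F')
    (hok : ∀ p ∈ F', Ok R p (β' - μ'))
    (hS : ∀ᶠ t in atTop, ∀ x : ι → ℝ, (∀ i, 0 < x i) → (∀ i ∈ R, exp (t * L) ≤ x i) →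
      exp (t * (β' - μ')) ≤ ∑ i ∈ R, x i → ∑ i ∈ R, x i ≤ exp (t * (β' + μ')) →
      ∀ p, IsTop' F' p t x → Star' R A β' p.1 t x μ') :
    ∀ᶠ t in atTop, ∀ x : ι → ℝ, (∀ i, 0 < x i) → (∀ i ∈ R, exp (t * L) ≤ x i) →
      exp (t * (β' - μ' / 2 - μ' / 4)) ≤ ∑ i ∈ R, x i → ∀ p,
      IsTop' (F ∪ (fun q => pure' R (β' - α) (c + fun t => -(β - β') * exp (t * θ)) + q) '' F')
        p t x → p = 0 ∨ (∑ i ∈ R, x i ≤ 2 * exp (t * θ0) ∧ Star' R A α p.1 t x (min μ μ')) := by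
  have hb : 0 < β - β' := by linarith [h.hθβ]
  have e2 : θ - s < θ := by linarith [h.hs]
  have e3 : β' - μ' < β' - μ' / 2 := by linarith
  have e4 : β' - μ' / 2 < θ := by linarith
  filter_upwards [h.dom, h.valid, hS, exp_dom e2 (1 + (β - β')) hb, fam_val_le hF' hok e3,
    exp_dom e4 1 hb, exp_dom hθ 2 one_pos, eventually_ge_atTop 0]
    with t h1 h2 h3 h4 h5 h6 h7 ht x hx hL hxs p hp
  rcases hp.1 with hpF | ⟨q, hq, rfl⟩
  · by_cases hc : exp (t * (θ - s)) ≤ ∑ i ∈ R, x i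
    · rcases h2 x hx hL hc p ⟨hpF, fun q hq => hp.2 q (Or.inl hq)⟩ with h8 | h8
      · exact Or.inl h8
      · exact Or.inr ⟨h8.1, h8.2.mono (min_le_left _ _) ht⟩
    · exfalso
      push Not at hc
      have h8 := h1 x hx (hc.le.trans (exp_mono' e2.le ht)) p hpF
      have h9 := hp.2 _ (Or.inr ⟨0, h0, rfl⟩)
      simp only [add_zero] at h9
      rw [val_next] at h9
      have h10 : (β - β') * (exp (t * θ) - exp (t * (θ - s))) ≤
          (β - β') * (exp (t * θ) - ∑ i ∈ R, x i) :=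
        mul_le_mul_of_nonneg_left (by linarith) hb.le
      nlinarith
  · right
    have h8 := hp.2 _ (Or.inl h.mem)
    simp only at h8
    rw [val_add, val_next] at h8
    have h9 := h5 q hq x hx
    have h10 : ∑ i ∈ R, x i ≤ 2 * exp (t * θ) := by
      by_contra hc
      push Not at hc
      have : (β - β') * (exp (t * θ) - ∑ i ∈ R, x i) ≤ (β - β') * (-exp (t * θ)) :=
        mul_le_mul_of_nonneg_left (by linarith) hb.le
      linarith
    refine ⟨h10.trans (by linarith [exp_mono' h.hθ0 ht]), ?_⟩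
    apply Star'.mono _ (min_le_right _ _) ht
    apply star_shift
    refine h3 x hx hL ((exp_mono' (by linarith) ht).trans hxs) (by linarith) q ⟨hq, fun q' hq' => ?_⟩
    have := hp.2 _ (Or.inr ⟨q', hq', rfl⟩)
    simp only [val_add] at this
    linarith

theorem step (h : Fam R A α θ0 L β θ F c s μ) (hβ' : β' ≤ θ) (hμ' : 0 < μ')
    (hθ : θ < β' + μ') (hF' : F'.Finite) (h0 : (0 : Pc ι) ∈ F')
    (hok : ∀ p ∈ F', Ok R p (β' - μ'))
    (hS : ∀ᶠ t in atTop, ∀ x : ι → ℝ, (∀ i, 0 < x i) → (∀ i ∈ R, exp (t * L) ≤ x i) →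
      exp (t * (β' - μ')) ≤ ∑ i ∈ R, x i → ∑ i ∈ R, x i ≤ exp (t * (β' + μ')) →
      ∀ p, IsTop' F' p t x → Star' R A β' p.1 t x μ') :
    Fam R A α θ0 L β' (β' - μ' / 2)
      (F ∪ (fun q => pure' R (β' - α) (c + fun t => -(β - β') * exp (t * θ)) + q) '' F')
      (c + fun t => -(β - β') * exp (t * θ)) (μ' / 4) (min μ μ') := by
  have hc := h.ok _ h.mem
  have hp : Ok R (pure' R (β' - α) (c + fun t => -(β - β') * exp (t * θ))) θ0 :=
    Ok.pure (by linarith [h.hθβ, h.hβα]) (hc.smooth.add (smooth_exp _ _))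
      (hc.bd.add ((Bd.exp _ _).mono h.hθ0))
  refine ⟨by linarith, by linarith [h.hθβ, h.hβα], by linarith [h.hθ0],
    h.fin.union (hF'.image _), ?_, Or.inr ⟨0, h0, by simp⟩, by linarith, lt_min h.hμ hμ',
    step_dom h hβ' hμ' hF' hok, step_valid h hβ' hμ' hθ hF' h0 hok hS⟩
  rintro p (hp' | ⟨q, hq, rfl⟩)
  · exact h.ok p hp'
  · exact hp.add ((hok q hq).mono subset_rfl (by linarith [h.hθ0]))

end step

theorem fam_init (R : Finset ι) (A : Set ((ι → ℝ) × ℝ)) {α θ0 : ℝ} (L : ℝ) (h : θ0 < α) :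
    Fam R A α θ0 L α θ0 {0} 0 1 1 := by
  have hz : pure' R (α - α) (0 : ℝ → ℝ) = 0 := by
    ext i
    · simp [pure']
    · simp [pure']
  refine ⟨h, le_rfl, le_rfl, Set.finite_singleton _, ?_, hz, one_pos, one_pos, ?_, ?_⟩
  · rintro p rfl
    exact Ok.zero _ _
  · refine Eventually.of_forall fun t x _ _ p hp => ?_
    rw [hz, Set.mem_singleton_iff.1 hp]
    simpa using (exp_pos _).le
  · exact Eventually.of_forall fun t x _ _ _ p hp => Or.inl hp.1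

theorem gProp_of_sProp {R : Finset ι} (hR : R.Nonempty) (hS : SProp R) : GProp R := by
  intro A hA α θ0 L hθ0
  obtain ⟨μ1, hμ1, F1, hF1, h01, hok1, hS1⟩ := hS A hA θ0 L
  have h1 := step (fam_init R A L hθ0) le_rfl hμ1 (by linarith) hF1 h01 hok1 hS1
  set q0 : Pc ι := pure' R (θ0 - α) (0 + fun t => -(α - θ0) * exp (t * θ0)) with hq0
  set T : Set ℝ := {θ | ∃ β F c s μ, Fam R A α θ0 L β θ F c s μ ∧ q0 ∈ F} with hT
  have hTne : T.Nonempty := ⟨_, _, _, _, _, _, h1, h1.mem⟩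
  have hlow : ∃ θ ∈ T, θ ≤ L := by
    by_contra hc
    push Not at hc
    have hbdd : BddBelow T := ⟨L, fun θ hθ => (hc θ hθ).le⟩
    obtain ⟨μ', hμ', F', hF', h0', hok', hS'⟩ := hS A hA (sInf T) L
    obtain ⟨θ, hθT, hθ⟩ := exists_lt_of_csInf_lt hTne (show sInf T < sInf T + μ' by linarith)
    obtain ⟨β, F, c, s, μ, hf, hq⟩ := hθT
    have h2 := step hf (csInf_le hbdd ⟨β, F, c, s, μ, hf, hq⟩) hμ' hθ hF' h0' hok' hS'
    have h3 : sInf T ≤ sInf T - μ' / 2 := csInf_le hbdd ⟨_, _, _, _, _, h2, Or.inl hq⟩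
    linarith
  obtain ⟨θ, ⟨β, F, c, s, μ, hf, hq⟩, hθL⟩ := hlow
  refine ⟨μ, hf.hμ, F, hf.fin, hf.ok, ⟨(α - θ0) / 2, by linarith, q0, hq, fun t x hx => ?_⟩, ?_⟩
  · rw [hq0, val_pure]
    simp only [Pi.add_apply, Pi.zero_apply]
    nlinarith
  · filter_upwards [hf.valid, eventually_ge_atTop 0] with t h2 ht x hx hL p hp
    refine h2 x hx hL ?_ p hp
    obtain ⟨i, hi⟩ := hR
    calc exp (t * (θ - s)) ≤ exp (t * L) := exp_mono' (by linarith [hf.hs]) ht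
      _ ≤ x i := hL i hi
      _ ≤ ∑ i ∈ R, x i := single_le_sum (fun j _ => (hx j).le) hi

end Vale.Agent.P072
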