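import Vale.Agent.P072.Barrier

/-! Permanence for bounded measurable rates. -/

open MeasureTheory Set Real Filter Topology

namespace Vale.Agent.P072

variable {d : ℕ}

theorem IsIntSol.congr {F F' : ℝ → (Fin d → ℝ) → (Fin d → ℝ)} {x : ℝ → Fin d → ℝ} {I : Set ℝ}
    (h : IsIntSol F x I) (hI : ∀ t ∈ I, 0 ≤ t ∧ ∀ s ∈ Icc 0 t, F s (x s) = F' s (x s)) :
    IsIntSol F' x I := by
  intro t ht
  have h1 : EqOn (fun s => F s (x s)) (fun s => F' s (x s)) (uIcc 0 t) := by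
    rw [uIcc_of_le (hI t ht).1]
    exact (hI t ht).2
  refine ⟨IntervalIntegrable.congr (h1.mono uIoc_subset_uIcc) (h t ht).1, ?_⟩
  rw [← intervalIntegral.integral_congr h1]
  exact (h t ht).2

/-- coordinatewise clamp. -/
def clamp (a b : ℝ) (y : Fin d → ℝ) : Fin d → ℝ := fun i => max a (min b (y i))

theorem clamp_lip (a b : ℝ) : LipschitzWith 1 (clamp (d := d) a b) := by
  refine LipschitzWith.of_dist_le_mul fun y z => ?_
  rw [dist_pi_le_iff (by positivity)]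
  intro i
  exact (((LipschitzWith.eval i).const_min b).const_max a).dist_le_mul y z

theorem clamp_mem {a b : ℝ} (h : a ≤ b) (y : Fin d → ℝ) :
    clamp a b y ∈ Icc (fun _ => a) (fun _ => b) :=
  ⟨fun _ => le_max_left _ _, fun _ => max_le h (min_le_left _ _)⟩

theorem clamp_eq {a b : ℝ} {y : Fin d → ℝ} (h : ∀ i, a ≤ y i ∧ y i ≤ b) : clamp a b y = y := by
  funext i
  rw [clamp, min_eq_right (h i).2, max_eq_right (h i).1]

/-- the field as a function of finitely many rates and the state. -/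
noncomputable def joint (R : Finset ((Fin d → ℕ) × (Fin d → ℕ)))
    (q : (R → ℝ) × (Fin d → ℝ)) : Fin d → ℝ :=
  ∑ r : R, (q.1 r * ∏ i, q.2 i ^ r.1.1 i) • reactVec r.1

theorem joint_eq (R : Finset ((Fin d → ℕ) × (Fin d → ℕ)))
    (k : (Fin d → ℕ) × (Fin d → ℕ) → ℝ) (y : Fin d → ℝ) :
    massAction R k y = joint R (fun r => k r, y) := by
  rw [massAction, joint, ← Finset.sum_coe_sort]

theorem joint_smooth (R : Finset ((Fin d → ℕ) × (Fin d → ℕ))) : ContDiff ℝ 1 (joint R) := by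
  unfold joint
  refine ContDiff.sum fun r _ => ?_
  have h1 : ContDiff ℝ 1 fun q : (R → ℝ) × (Fin d → ℝ) => q.1 r := by fun_prop
  have h2 : ContDiff ℝ 1 fun q : (R → ℝ) × (Fin d → ℝ) => ∏ i, q.2 i ^ r.1.1 i :=
    contDiff_prod fun i _ => by fun_prop
  exact (h1.mul h2).smul contDiff_const

theorem clamped_field (R : Finset ((Fin d → ℕ) × (Fin d → ℕ))) {lo hi a b : ℝ} (hab : a ≤ b)
    {k : ℝ → (Fin d → ℕ) × (Fin d → ℕ) → ℝ} (hm : ∀ r ∈ R, Measurable fun t => k t r)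
    (hk : ∀ t, ∀ r ∈ R, lo ≤ k t r ∧ k t r ≤ hi) :
    (∀ x : ℝ → Fin d → ℝ, Continuous x →
      AEStronglyMeasurable (fun s => massAction R (k s) (clamp a b (x s))) volume) ∧
    (∃ B, ∀ s y, ‖massAction R (k s) (clamp a b y)‖ ≤ B) ∧
    ∃ L, ∀ s, LipschitzWith L fun y => massAction R (k s) (clamp a b y) := by
  set Q : Set ((R → ℝ) × (Fin d → ℝ)) :=
    Icc (fun _ => lo) (fun _ => hi) ×ˢ Icc (fun _ => a) (fun _ => b) with hQ
  have hQc : IsCompact Q := isCompact_Icc.prod isCompact_Icc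
  have hQv : Convex ℝ Q := (convex_Icc _ _).prod (convex_Icc _ _)
  have hmem : ∀ s y, ((fun r : R => k s r), clamp a b y) ∈ Q := fun s y =>
    ⟨⟨fun r => (hk s r r.2).1, fun r => (hk s r r.2).2⟩, clamp_mem hab y⟩
  simp only [joint_eq]
  refine ⟨fun x hx => ?_, ?_, ?_⟩
  · refine ((joint_smooth R).continuous.measurable.comp (Measurable.prodMk ?_ ?_)).aestronglyMeasurable
    · exact measurable_pi_lambda _ fun r => hm r r.2
    · exact ((clamp_lip a b).continuous.comp hx).measurable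
  · obtain ⟨B, hB⟩ := hQc.exists_bound_of_continuousOn (joint_smooth R).continuous.continuousOn
    exact ⟨B, fun s y => hB _ (hmem s y)⟩
  · obtain ⟨L, hL⟩ := (joint_smooth R).contDiffOn.exists_lipschitzOnWith one_ne_zero hQv hQc
    refine ⟨L, fun s => LipschitzWith.of_dist_le_mul fun y z => ?_⟩
    refine (hL.dist_le_mul _ (hmem s y) _ (hmem s z)).trans
      (mul_le_mul_of_nonneg_left ?_ L.coe_nonneg)
    rw [Prod.dist_eq, dist_self, max_eq_right dist_nonneg]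
    simpa using (clamp_lip a b).dist_le_mul y z

theorem setup {R : Finset ((Fin d → ℕ) × (Fin d → ℕ))} (hR : WeaklyReversible R) {lo hi : ℝ}
    (hlo : 0 < lo) (hhi : 0 < hi) {c : Fin d → ℝ} (hc : ∀ i, 0 < c i) :
    ∃ (lam t0 : ℝ) (W : Set (Pc (Fin d))), 0 < lam ∧ 0 ≤ t0 ∧ W.Finite ∧
      (∀ p ∈ W, ContDiff ℝ 1 p.2) ∧
      (∀ p ∈ W, ∀ x : Fin d → ℝ, (∀ i, 0 < x i) → ∀ᶠ t in atTop, val p t x < 0) ∧
      (∀ t x, Sat W t x → ∀ i, exp (t * (-1)) ≤ x i ∧ x i ≤ exp (t * lam)) ∧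
      ∀ t1, ∃ η : ℝ, 0 < η ∧ ∀ p ∈ W, ∀ s ∈ Icc t0 t1, ∀ z,
        z - c ∈ Submodule.span ℝ (reactVec '' (R : Set ((Fin d → ℕ) × (Fin d → ℕ)))) →
        Sat W s z → val p s z = 0 → ∀ᶠ z' in 𝓝 z, ∀ k : (Fin d → ℕ) × (Fin d → ℕ) → ℝ,
          (∀ r ∈ R, lo ≤ k r ∧ k r ≤ hi) → p.1 ⬝ᵥ massAction R k z' ≤ -η := by
  obtain ⟨lam, μ, W, hlam, hμ, hW, hsm, hexh, hbox, hstar⟩ := lemmaK (walls_finite R)
  obtain ⟨δ, hδ⟩ := flux hR hW hlo hhi
  have h1 : ∀ᶠ t : ℝ in atTop, δ < μ * t :=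
    (tendsto_id.const_mul_atTop hμ).eventually_gt_atTop δ
  obtain ⟨t0, ht0⟩ := eventually_atTop.1 (hstar.and (h1.and ((eventually_ge_atTop 0).and
    ((eventually_all_finite hW).2 fun p hp => hexh p hp c hc))))
  refine ⟨lam, t0, W, hlam, (ht0 t0 le_rfl).2.2.1, hW, hsm, hexh, hbox, fun t1 => ?_⟩
  obtain ⟨η, hη, hf⟩ := hδ (exp (t1 * (-1)) / 2) (by positivity)
  refine ⟨η, hη, fun p hp s hs z hz hsat hact => ?_⟩
  obtain ⟨h2, h3, -, h4⟩ := ht0 s hs.1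
  have hne : ∃ r ∈ R, p.1 ⬝ᵥ reactVec r ≠ 0 := by
    by_contra hcon
    push Not at hcon
    have h5 := dot_span hcon hz
    have h6 := h4 p hp
    rw [dotProduct_sub] at h5
    change p.1 ⬝ᵥ z - p.2 _ = 0 at hact
    change p.1 ⬝ᵥ c - p.2 _ < 0 at h6
    linarith
  have hz1 : ∀ i, exp (t1 * (-1)) ≤ z i := fun i =>
    (exp_le_exp.2 (by linarith [hs.2])).trans (hbox s z hsat i).1
  have hz0 : ∀ i, 0 < z i := fun i => (exp_pos _).trans_le (hz1 i)
  have e1 : ∀ᶠ z' in 𝓝 z, ∀ i, exp (t1 * (-1)) / 2 ≤ z' i := by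
    refine eventually_all.2 fun i => ?_
    exact ((continuous_apply i).tendsto z).eventually
      (le_mem_nhds (by linarith [hz1 i, exp_pos (t1 * (-1))]))
  have e2 : ∀ᶠ z' in 𝓝 z, ∀ v ∈ walls R, 0 < ∑ i, v.1 i * p.1 i →
      δ ≤ ∑ i, v.1 i * log (z' i) := by
    refine (eventually_all_finite (walls_finite R)).2 fun v hv => ?_
    by_cases h0 : 0 < ∑ i, v.1 i * p.1 i
    · have hv2 : v.2 = 0 := by obtain ⟨q, -, rfl⟩ := hv; rfl
      have h5 := h2 z hsat p hp hact v hv (by simpa [hv2] using h0)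
      rw [hv2, zero_mul, add_zero] at h5
      have h6 : ContinuousAt (fun z' : Fin d → ℝ => ∑ i, v.1 i * log (z' i)) z :=
        tendsto_finsetSum _ fun i _ => continuousAt_const.mul
          ((continuous_apply i).continuousAt.log (hz0 i).ne')
      exact (h6.eventually (le_mem_nhds (h3.trans_le h5))).mono fun z' h _ => h
    · exact Eventually.of_forall fun z' h => absurd h h0
  filter_upwards [e1, e2] with z' h5 h6 k hk
  exact hf p hp hne k hk z' h5 h6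

theorem lip_fam {W : Set (Pc (Fin d))} (hW : W.Finite) (hsm : ∀ p ∈ W, ContDiff ℝ 1 p.2)
    (t0 t1 : ℝ) : ∃ Λ : ℝ, 0 < Λ ∧
      ∀ p ∈ W, ∀ s ∈ Icc t0 t1, ∀ s' ∈ Icc t0 t1, |p.2 s - p.2 s'| ≤ Λ * |s - s'| := by
  have h1 := fun p (hp : p ∈ W) => (hsm p hp).contDiffOn.exists_lipschitzOnWith one_ne_zero
    (convex_Icc t0 t1) isCompact_Icc
  choose! K hK using h1
  obtain ⟨Λ, hΛ, h⟩ := exists_bound hW fun p => (K p : ℝ)
  refine ⟨Λ, hΛ, fun p hp s hs s' hs' => ?_⟩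
  have h2 := (hK p hp).dist_le_mul s hs s' hs'
  rw [Real.dist_eq, Real.dist_eq] at h2
  exact h2.trans (mul_le_mul_of_nonneg_right (h p hp) (abs_nonneg _))

theorem core {R : Finset ((Fin d → ℕ) × (Fin d → ℕ))} (hR : WeaklyReversible R) {lo hi : ℝ}
    (hlo : 0 < lo) (hhi : 0 < hi) {c : Fin d → ℝ} (hc : ∀ i, 0 < c i) :
    ∃ K : Set (Fin d → ℝ), IsCompact K ∧ K ⊆ posClass R c ∧
      ∀ k : ℝ → (Fin d → ℕ) × (Fin d → ℕ) → ℝ, (∀ r ∈ R, Measurable fun t => k t r) →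
      (∀ t, ∀ r ∈ R, lo ≤ k t r ∧ k t r ≤ hi) → ∀ x0 ∈ posClass R c,
      ∃ x : ℝ → Fin d → ℝ, x 0 = x0 ∧ IsIntSol (fun t => massAction R (k t)) x (Ici 0) ∧
        (∀ t, 0 ≤ t → x t ∈ posClass R c) ∧ (∃ T, ∀ t, T ≤ t → x t ∈ K) ∧
        ∀ T y, y 0 = x0 → IsIntSol (fun t => massAction R (k t)) y (Icc 0 T) →
          ∀ t ∈ Icc 0 T, y t = x t := by
  obtain ⟨lam, t0, W, hlam, ht0, hW, hsm, hexh, hbox, hflux⟩ := setup hR hlo hhi hc
  set S := Submodule.span ℝ (reactVec '' (R : Set ((Fin d → ℕ) × (Fin d → ℕ)))) with hS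
  refine ⟨{z | z - c ∈ S ∧ Sat W t0 z}, ?_,
    fun z hz => ⟨hz.1, fun i => (exp_pos _).trans_le (hbox _ _ hz.2 i).1⟩, ?_⟩
  · refine (isCompact_Icc (a := fun _ => exp (t0 * (-1)))
      (b := fun _ => exp (t0 * lam))).of_isClosed_subset ?_
      fun z hz => ⟨fun i => (hbox _ _ hz.2 i).1, fun i => (hbox _ _ hz.2 i).2⟩
    refine IsClosed.inter (S.closed_of_finiteDimensional.preimage
      (continuous_id.sub continuous_const)) ?_
    have : {z | Sat W t0 z} = ⋂ p ∈ W, {z | val p t0 z ≤ 0} := by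
      ext z; simp [Sat]
    change IsClosed {z | Sat W t0 z}
    rw [this]
    exact isClosed_biInter fun p _ => isClosed_le (by unfold val; fun_prop) continuous_const
  intro k hm hk x0 hx0
  obtain ⟨t1, h1, ht⟩ := (((eventually_all_finite hW).2 fun p hp => hexh p hp x0 hx0.2).and
    (eventually_ge_atTop t0)).exists
  obtain ⟨η, hη, hf⟩ := hflux t1
  obtain ⟨Λ, hΛ, hLip⟩ := lip_fam hW hsm t0 t1
  set a := exp (t1 * (-1)) with ha
  set b := exp (t1 * lam) with hb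
  have hab : a ≤ b := exp_mono' (by linarith) (ht0.trans ht)
  have hin : ∀ s ∈ Icc t0 t1, ∀ z, Sat W s z → clamp a b z = z := fun s hs z hz =>
    clamp_eq fun i => ⟨(exp_le_exp.2 (by linarith [hs.2])).trans (hbox s z hz i).1,
      (hbox s z hz i).2.trans (exp_le_exp.2 (mul_le_mul_of_nonneg_right hs.2 hlam.le))⟩
  have he : 0 < η / Λ := div_pos hη hΛ
  have hmem : ∀ τ, 0 ≤ τ → max t0 (t1 - η / Λ * τ) ∈ Icc t0 t1 := fun τ hτ =>
    ⟨le_max_left _ _, max_le ht (by nlinarith)⟩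
  have trap : ∀ ψ : (Fin d → ℝ) → Fin d → ℝ, Continuous ψ →
      (∀ s ∈ Icc t0 t1, ∀ z, Sat W s z → ψ z = z) → ∀ T x, x 0 = x0 →
      IsIntSol (fun t y => massAction R (k t) (ψ y)) x (Icc 0 T) → ∀ τ ∈ Icc 0 T,
      x τ - c ∈ S ∧ Sat W (max t0 (t1 - η / Λ * τ)) (x τ) := by
    intro ψ hψ hψ' T x h0 hx
    have hP : ∀ τ ∈ Icc 0 T, x τ - c ∈ S := fun τ hτ => by
      have h2 := S.add_mem (hx.mem_span (fun s y => mass_mem R _ _) hτ) hx0.1
      rwa [h0, sub_add_sub_cancel] at h2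
    refine fun τ hτ => ⟨hP τ hτ, barrier hW (P := {z | z - c ∈ S}) ht he.le hΛ.le
      (by rw [mul_div_cancel₀ _ hΛ.ne']) (fun p hp => (hsm p hp).continuous) hLip ?_ hx hP
      (fun p hp => by rw [h0]; exact (h1 p hp).le) τ hτ⟩
    intro p hp s hs z hz hsat hact
    have h2 := hf p hp s hs z hz hsat hact
    have h3 : Tendsto ψ (𝓝 z) (𝓝 z) := by simpa [hψ' s hs z hsat] using hψ.tendsto z
    exact (h3.eventually h2).mono fun z' h σ _ => h _ (hk σ)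
  obtain ⟨hmeas, ⟨B, hB⟩, L, hL⟩ := clamped_field R hab hm hk
  obtain ⟨x, h0, hx⟩ := exists_sol (F := fun t y => massAction R (k t) (clamp a b y))
    hmeas hB hL x0
  have hxs := fun t (ht : 0 ≤ t) => trap _ (clamp_lip a b).continuous hin t x h0
    (hx.mono Icc_subset_Ici_self) t ⟨ht, le_rfl⟩
  refine ⟨x, h0, hx.congr fun t ht => ⟨ht, fun s hs => ?_⟩, fun t ht => ⟨(hxs t ht).1,
    fun i => (exp_pos _).trans_le (hbox _ _ (hxs t ht).2 i).1⟩,
    ⟨(t1 - t0) / (η / Λ), fun t hT => ?_⟩, fun T y hy0 hy => ?_⟩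
  · simp only [hin _ (hmem s hs.1) _ (hxs s hs.1).2]
  · have h2 : 0 ≤ t := (div_nonneg (by linarith) he.le).trans hT
    have h3 := hxs t h2
    rw [div_le_iff₀ he] at hT
    rwa [max_eq_left (by linarith)] at h3
  · have h2 := trap id continuous_id (fun _ _ _ _ => rfl) T y hy0 hy
    refine unique_sol hL (hy.congr fun t ht => ⟨ht.1, fun s hs => ?_⟩)
      (hx.mono Icc_subset_Ici_self) (hy0.trans h0.symm)
    simp only [hin _ (hmem s hs.1) _ (h2 s ⟨hs.1, hs.2.trans ht.2⟩).2]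

end Vale.Agent.P072
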