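import Vale.Agent.P072.Ladder

/-! The scale property holds for every index set. -/

open Filter Real Finset

namespace Vale.Agent.P072

variable {ι : Type*} [Fintype ι] [DecidableEq ι]

theorem abs_log_sub {t α η y : ℝ} (h1 : exp (t * (α - η)) ≤ y) (h2 : y ≤ exp (t * (α + η))) :
    |log y - α * t| ≤ η * t := by
  have hy : 0 < y := (exp_pos _).trans_le h1
  have h3 := (le_log_iff_exp_le hy).2 h1
  have h4 := (log_le_iff_le_exp hy).2 h2
  rw [abs_le]
  constructor <;> nlinarith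

omit [DecidableEq ι] in
theorem sum_ge_neg {S : Finset ι} {v u : ι → ℝ} {K η : ℝ} (hK : ∑ i, |v i| ≤ K) (hη : 0 ≤ η)
    (hu : ∀ i ∈ S, |u i| ≤ η) : -(K * η) ≤ ∑ i ∈ S, v i * u i := by
  have h1 : |∑ i ∈ S, v i * u i| ≤ ∑ i ∈ S, |v i| * η :=
    (abs_sum_le_sum_abs _ _).trans (sum_le_sum fun i hi => by
      rw [abs_mul]; exact mul_le_mul_of_nonneg_left (hu i hi) (abs_nonneg _))
  have h2 : ∑ i ∈ S, |v i| ≤ ∑ i, |v i| :=
    sum_le_sum_of_subset_of_nonneg (subset_univ _) fun i _ _ => abs_nonneg _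
  rw [← sum_mul] at h1
  have h3 := mul_le_mul_of_nonneg_right (h2.trans hK) hη
  linarith [neg_abs_le (∑ i ∈ S, v i * u i)]

/-- walls seen from a subset. -/
def shiftA (R R' : Finset ι) (α : ℝ) (A : Set ((ι → ℝ) × ℝ)) : Set ((ι → ℝ) × ℝ) :=
  (fun a => (a.1, a.2 + α * ∑ i ∈ R \ R', a.1 i)) '' A

theorem star_ext {R R' : Finset ι} {A : Set ((ι → ℝ) × ℝ)} {α K η μ t : ℝ} {b x : ι → ℝ}
    (hR : R' ⊆ R) (hb : ∀ i, i ∉ R' → b i = 0) (hK : ∀ a ∈ A, ∑ i, |a.1 i| ≤ K)
    (hη : 0 ≤ η) (hKη : K * η ≤ μ / 2) (ht : 0 ≤ t)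
    (hx : ∀ i ∈ R \ R', |log (x i) - α * t| ≤ η * t)
    (h : Star' R' (shiftA R R' α A) α b t x μ) : Star' R A α b t x (μ / 2) := by
  intro a ha h0
  have h1 := h _ ⟨a, ha, rfl⟩
  simp only at h1
  rw [← sum_sdiff hR] at h0 ⊢
  have h2 : ∑ i ∈ R \ R', a.1 i * (α + b i) = α * ∑ i ∈ R \ R', a.1 i := by
    rw [mul_sum]
    refine sum_congr rfl fun i hi => ?_
    rw [hb i (mem_sdiff.1 hi).2]; ring
  have h3 := h1 (by linarith)
  have h4 := sum_ge_neg (hK a ha) (mul_nonneg hη ht) hx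
  have h5 : ∑ i ∈ R \ R', a.1 i * (log (x i) - α * t) =
      ∑ i ∈ R \ R', a.1 i * log (x i) - α * (∑ i ∈ R \ R', a.1 i) * t := by
    rw [mul_sum, sum_mul, ← sum_sub_distrib]
    exact sum_congr rfl fun i _ => by ring
  have h6 := mul_le_mul_of_nonneg_right hKη ht
  nlinarith

structure Inv' (R : Finset ι) (A : Set ((ι → ℝ) × ℝ)) (α L : ℝ) (r : ℕ) (ε μ : ℝ)
    (F : Set (Pc ι)) : Prop where
  hε : 0 < ε
  hμ : 0 < μ
  fin : F.Finite
  zero : (0 : Pc ι) ∈ F
  ok : ∀ p ∈ F, Ok R p (α - 2 * ε)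
  valid : ∀ᶠ t in atTop, ∀ x : ι → ℝ, (∀ i, 0 < x i) → (∀ i ∈ R, exp (t * L) ≤ x i) →
    (∀ i ∈ R, x i ≤ exp (t * (α + ε))) → ∀ p, IsTop' F p t x → Star' R A α p.1 t x μ ∨
      ∃ R' ⊆ R, R'.card = r ∧ ∑ i ∈ R', x i ≤ exp (t * (α - ε)) / 2

theorem small_eps {K m ε : ℝ} (hK : 0 < K) (hm : 0 < m) (hε : 0 < ε) :
    ∃ ε' : ℝ, 0 < ε' ∧ 2 * ε' ≤ ε ∧ K * (2 * ε') ≤ m / 2 := by
  refine ⟨min (ε / 2) (m / (4 * K)), lt_min (by linarith) (by positivity), ?_, ?_⟩
  · linarith [min_le_left (ε / 2) (m / (4 * K))]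
  · have h1 := mul_le_mul_of_nonneg_left (min_le_right (ε / 2) (m / (4 * K))) hK.le
    have h2 : K * (m / (4 * K)) = m / 4 := by field_simp
    linarith

theorem inv_one (R : Finset ι) {A : Set ((ι → ℝ) × ℝ)} (hA : A.Finite) (α L : ℝ) :
    ∃ ε μ F, Inv' R A α L 1 ε μ F := by
  obtain ⟨K, hK0, hK⟩ := exists_bound hA fun a => ∑ i, |a.1 i|
  have hfin : ({a ∈ shiftA R ∅ α A | 0 < a.2}).Finite := (hA.image _).subset fun a ha => ha.1
  obtain ⟨m, hm0, hm⟩ := exists_pos_le hfin (fun a => a.2) fun a ha => ha.2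
  obtain ⟨ε, hε, -, hKε⟩ := small_eps hK0 hm0 one_pos
  refine ⟨ε, m / 2, {0}, hε, by linarith, Set.finite_singleton _, rfl, ?_, ?_⟩
  · rintro p rfl
    exact Ok.zero _ _
  · filter_upwards [exp_dom (show α - 2 * ε < α - ε by linarith) 2 one_pos,
      eventually_ge_atTop 0] with t h1 ht x hx _ hU p hp
    by_cases hc : ∀ i ∈ R, exp (t * (α - ε)) / 2 ≤ x i
    · left
      obtain rfl : p = 0 := hp.1
      refine star_ext (empty_subset R) (fun _ _ => rfl) hK (by linarith) hKε ht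
        (fun i hi => abs_log_sub ?_ ?_) ?_
      · linarith [hc i (mem_sdiff.1 hi).1]
      · exact (hU i (mem_sdiff.1 hi).1).trans (exp_mono' (by linarith) ht)
      · intro a ha h0
        simp only [sum_empty, zero_add] at h0 ⊢
        exact mul_le_mul_of_nonneg_right (hm a ⟨ha, h0⟩) ht
    · right
      push Not at hc
      obtain ⟨i, hi, hxi⟩ := hc
      exact ⟨{i}, by simpa using hi, card_singleton i, by simpa using hxi.le⟩

theorem inv_step {R : Finset ι} {A : Set ((ι → ℝ) × ℝ)} (hA : A.Finite) {α L : ℝ} {r : ℕ}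
    (hG : ∀ R' ⊆ R, R'.card = r → GProp R') {ε μ : ℝ} {F : Set (Pc ι)}
    (h : Inv' R A α L r ε μ F) : ∃ ε μ F, Inv' R A α L (r + 1) ε μ F := by
  obtain ⟨K, hK0, hK⟩ := exists_bound hA fun a => ∑ i, |a.1 i|
  have hε := h.hε
  set S : Set (Finset ι) := {R' | R' ⊆ R ∧ R'.card = r} with hS
  have hSf : S.Finite := Set.toFinite _
  have hG' := fun R' (hR' : R' ∈ S) =>
    hG R' hR'.1 hR'.2 (shiftA R R' α A) (hA.image _) α (α - ε) L (by linarith)
  choose! μf hμf Ff hFf hokf hgain hval using hG'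
  choose! κ hκ q hq hgain using hgain
  obtain ⟨m, hm0, hm⟩ := exists_pos_le hSf μf hμf
  obtain ⟨κ0, hκ0, hκ1⟩ := exists_pos_le hSf κ hκ
  obtain ⟨ε', hε', hεε, hKε⟩ := small_eps hK0 hm0 hε
  refine ⟨ε', min μ (m / 2), F ∪ ⋃ R' ∈ S, Ff R', hε', lt_min h.hμ (by linarith),
    h.fin.union (hSf.biUnion hFf), Or.inl h.zero, ?_, ?_⟩
  · rintro p (hp | hp)
    · exact (h.ok p hp).mono subset_rfl (by linarith)
    · obtain ⟨R', hR', hp⟩ := Set.mem_iUnion₂.1 hp
      exact (hokf R' hR' p hp).mono hR'.1 (by linarith)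
  · filter_upwards [h.valid, (eventually_all_finite hSf).2 hval,
      fam_val_le h.fin h.ok (show α - 2 * ε < α - 3 / 2 * ε by linarith),
      exp_dom (show α - 3 / 2 * ε < α - ε by linarith) 1 hκ0,
      exp_dom (show α - 2 * ε' < α - ε' by linarith) 4 one_pos,
      exp_dom (show α - ε < α - ε' by linarith) 8 one_pos,
      eventually_ge_atTop 0] with t h1 h2 h3 h4 h5 h6 ht x hx hL hU p hp
    have hold : p ∈ F → Star' R A α p.1 t x (min μ (m / 2)) := by
      intro hpF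
      rcases h1 x hx hL (fun i hi => (hU i hi).trans (exp_mono' (by linarith) ht)) p
        ⟨hpF, fun q hq => hp.2 q (Or.inl hq)⟩ with h7 | ⟨R', hR', hc, h7⟩
      · exact h7.mono (min_le_left _ _) ht
      · exfalso
        have hR'S : R' ∈ S := ⟨hR', hc⟩
        have h8 := hgain R' hR'S t x h7
        have h9 := hp.2 (q R') (Or.inr (Set.mem_iUnion₂.2 ⟨R', hR'S, hq R' hR'S⟩))
        have h10 := h3 p hpF x hx
        have h11 := mul_le_mul_of_nonneg_right (hκ1 R' hR'S) (exp_pos (t * (α - ε))).le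
        linarith
    rcases hp.1 with hpF | hpU
    · exact Or.inl (hold hpF)
    obtain ⟨R', hR', hpR⟩ := Set.mem_iUnion₂.1 hpU
    rcases h2 R' hR' x hx (fun i hi => hL i (hR'.1 hi)) p
      ⟨hpR, fun q hq => hp.2 q (Or.inr (Set.mem_iUnion₂.2 ⟨R', hR', hq⟩))⟩ with h7 | ⟨h7, h8⟩
    · exact Or.inl (hold (h7 ▸ h.zero))
    by_cases hc : ∀ i ∈ R \ R', exp (t * (α - ε')) / 4 ≤ x i
    · left
      refine Star'.mono ?_ (min_le_right _ _) ht
      refine star_ext hR'.1 (hokf R' hR' p hpR).supp hK (by linarith) hKε ht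
        (fun i hi => abs_log_sub ?_ ?_) (h8.mono (hm R' hR') ht)
      · linarith [hc i hi]
      · exact (hU i (mem_sdiff.1 hi).1).trans (exp_mono' (by linarith) ht)
    · right
      push Not at hc
      obtain ⟨i, hi, hxi⟩ := hc
      have hi' := mem_sdiff.1 hi
      refine ⟨insert i R', insert_subset hi'.1 hR'.1, by rw [card_insert_of_notMem hi'.2, hR'.2], ?_⟩
      rw [sum_insert hi'.2]
      linarith

theorem sProp_all (R : Finset ι) : SProp R := by
  induction R using Finset.strongInduction with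
  | H R ih =>
  intro A hA α L
  rcases R.eq_empty_or_nonempty with rfl | hR
  · refine ⟨1, one_pos, {0}, Set.finite_singleton _, rfl, ?_, ?_⟩
    · rintro p rfl
      exact Ok.zero _ _
    · refine Eventually.of_forall fun t x _ _ h => ?_
      exact absurd h (by simpa using exp_pos _)
  have key : ∀ r, 1 ≤ r → r ≤ R.card → ∃ ε μ F, Inv' R A α L r ε μ F := by
    intro r hr
    induction r, hr using Nat.le_induction with
    | base => exact fun _ => inv_one R hA α L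
    | succ r hr ih2 =>
      intro hr'
      obtain ⟨ε, μ, F, h⟩ := ih2 (by omega)
      refine inv_step hA (fun R' hR' hc => gProp_of_sProp (card_pos.1 (by omega)) (ih R' ?_)) h
      exact Finset.ssubset_iff_subset_ne.2 ⟨hR', fun h => by rw [h] at hc; omega⟩
  obtain ⟨ε, μ, F, h⟩ := key R.card (card_pos.2 hR) le_rfl
  have hε := h.hε
  have h1 := min_le_left ε μ
  refine ⟨min ε μ, lt_min h.hε h.hμ, F, h.fin, h.zero,
    fun p hp => (h.ok p hp).mono subset_rfl (by linarith), ?_⟩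
  filter_upwards [h.valid, eventually_ge_atTop 0] with t h2 ht x hx hL hlo hup p hp
  rcases h2 x hx hL (fun i hi => ((single_le_sum (fun j _ => (hx j).le) hi).trans hup).trans
    (exp_mono' (by linarith) ht)) p hp with h3 | ⟨R', hR', hc, h3⟩
  · exact h3.mono (min_le_right _ _) ht
  · exfalso
    obtain rfl : R' = R := eq_of_subset_of_card_le hR' hc.ge
    have h4 := exp_mono' (show α - ε ≤ α - min ε μ by linarith) ht
    linarith [exp_pos (t * (α - ε))]

end Vale.Agent.P072
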